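/-
S0423 library: common definitions (no proofs).  Owner: helper8.
-/
import Mathlib
import Crest.Prelude.Def_TruncExpWeight

set_option autoImplicit false

namespace Crest.Agent.S0423Lib

open MeasureTheory Set

/-- `phi x = 1 - g (4/3 + x)` where `g = truncExpWeight`.  So `phi x = 0` for `x ≤ -4/3` and
`phi x = 1 - (1 + (4/3 + x)) * exp (-(4/3 + x))` otherwise. Nondecreasing, values in `[0,1)`. -/
noncomputable def phi (x : ℝ) : ℝ := 1 - Crest.AlgGeometry.truncExpWeight (4 / 3 + x)

/-- `wt = phi'`: `wt x = (4/3 + x) * exp (-(4/3 + x))` for `x > -4/3`, `0` otherwise. -/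
noncomputable def wt (x : ℝ) : ℝ :=
  if 4 / 3 + x ≤ 0 then 0 else (4 / 3 + x) * Real.exp (-(4 / 3 + x))

/-- the extremal value `m* = (4/9) e^{-1/3}` of `E phi`. -/
noncomputable def mstar : ℝ := 4 / 9 * Real.exp (-(1 / 3))

/-- The orthant integral `E h(∑ a_i X_i)` for iid standard exponentials `X_i`. -/
noncomputable def J (N : ℕ) (a : Fin N → ℝ) (h : ℝ → ℝ) : ℝ :=
  ∫ x in Set.pi Set.univ (fun _ : Fin N => Set.Ioi (0 : ℝ)),
    h (∑ i, a i * x i) * Real.exp (-∑ i, x i)

/-- survival function `P(∑ a_i X_i > s)`. -/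
noncomputable def surv (N : ℕ) (a : Fin N → ℝ) (s : ℝ) : ℝ :=
  J N a ((Set.Ioi s).indicator 1)

/-- exponential averaging: `(expAvg c G) s = E G(s - c X)`; if `G` is the survival function of
`T` then `expAvg c G` is the survival function of `T + c X` (`X` independent standard exponential). -/
noncomputable def expAvg (c : ℝ) (G : ℝ → ℝ) (s : ℝ) : ℝ :=
  ∫ u in Set.Ioi (0 : ℝ), Real.exp (-u) * G (s - c * u)

/-- the class of positive, continuous, antitone, log-concave "survival functions". -/
structure IsLCSurv (G : ℝ → ℝ) : Prop where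
  cont : Continuous G
  pos : ∀ s, 0 < G s
  le_one : ∀ s, G s ≤ 1
  anti : Antitone G
  conc : ConcaveOn ℝ Set.univ (fun s => Real.log (G s))

/-- survival function of the shifted exponential `β + b X`, `b > 0`. -/
noncomputable def expSurv (β b : ℝ) (s : ℝ) : ℝ := min 1 (Real.exp (-(s - β) / b))

/-- the law of `N` iid standard exponentials, as a measure on `Fin N → ℝ`. -/
noncomputable def expPi (N : ℕ) : Measure (Fin N → ℝ) :=
  (volume.restrict (Set.pi Set.univ (fun _ : Fin N => Set.Ioi (0 : ℝ)))).withDensity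
    (fun x => ENNReal.ofReal (Real.exp (-∑ i, x i)))

/-- the law of `∑ a_i X_i` on `ℝ`. -/
noncomputable def law (N : ℕ) (a : Fin N → ℝ) : Measure ℝ :=
  Measure.map (fun x : Fin N → ℝ => ∑ i, a i * x i) (expPi N)

end Crest.Agent.S0423Lib
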