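/-
S0423 library, module O (the orthant integral `J`, its recursion, and the law of `∑ a_i X_i`).
SPEC: statements are frozen interfaces (do not change statements); all are proved below.
Main tool: `MeasureTheory.volume_preserving_piFinSuccAbove (fun _ => ℝ) i` + Fubini
(`setIntegral_prod`), `Fin.sum_univ_succAbove`; `Measure.pi_of_empty` for `N = 0`;
`MeasureTheory.integral_fintype_prod_eq_prod` / `Integrable.fintype_prod` for product integrands.
Owner: helper9.
-/
import Crest.Agent.S0423Lib.Defs

set_option autoImplicit false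

namespace Crest.Agent.S0423Lib

open MeasureTheory Set

/-! ### Auxiliary facts about integrals over the orthant -/

/-- Lebesgue measure restricted to the orthant is the product of the restricted measures. -/
theorem orthant_restrict (N : ℕ) :
    (volume : Measure (Fin N → ℝ)).restrict (Set.pi Set.univ (fun _ : Fin N => Set.Ioi (0 : ℝ)))
      = Measure.pi (fun _ : Fin N => (volume : Measure ℝ).restrict (Set.Ioi (0 : ℝ))) := by
  rw [volume_pi]
  exact Measure.restrict_pi_pi (fun _ : Fin N => (volume : Measure ℝ)) (fun _ => Set.Ioi (0 : ℝ))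

/-- product integrands are integrable on the orthant. -/
theorem orthant_integrableOn_prod (N : ℕ) (f : Fin N → ℝ → ℝ)
    (hf : ∀ i, IntegrableOn (f i) (Ioi (0 : ℝ))) :
    IntegrableOn (fun x : Fin N → ℝ => ∏ i, f i (x i))
      (Set.pi Set.univ (fun _ : Fin N => Set.Ioi (0 : ℝ))) := by
  unfold IntegrableOn
  rw [orthant_restrict]
  exact Integrable.fintype_prod hf

/-- the integral of a product integrand over the orthant. -/
theorem orthant_integral_prod (N : ℕ) (f : Fin N → ℝ → ℝ) :
    ∫ x in Set.pi Set.univ (fun _ : Fin N => Set.Ioi (0 : ℝ)), ∏ i, f i (x i)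
      = ∏ i, ∫ u in Ioi (0 : ℝ), f i u := by
  rw [orthant_restrict]
  exact integral_fintype_prod_eq_prod (𝕜 := ℝ) f

theorem orthant_exp_neg_sum (N : ℕ) (x : Fin N → ℝ) :
    Real.exp (-∑ i, x i) = ∏ i, Real.exp (-(x i)) := by
  rw [← Real.exp_sum, Finset.sum_neg_distrib]

theorem orthant_integrableOn_exp (N : ℕ) :
    IntegrableOn (fun x : Fin N → ℝ => Real.exp (-∑ i, x i))
      (Set.pi Set.univ (fun _ : Fin N => Set.Ioi (0 : ℝ))) := by
  have h : (fun x : Fin N → ℝ => Real.exp (-∑ i, x i)) = fun x => ∏ i, Real.exp (-(x i)) := by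
    funext x; exact orthant_exp_neg_sum N x
  rw [h]
  exact orthant_integrableOn_prod N (fun _ u => Real.exp (-u)) (fun _ => integrableOn_exp_neg_Ioi 0)

theorem orthant_integral_exp (N : ℕ) :
    ∫ x in Set.pi Set.univ (fun _ : Fin N => Set.Ioi (0 : ℝ)), Real.exp (-∑ i, x i) = 1 := by
  have h : (fun x : Fin N → ℝ => Real.exp (-∑ i, x i)) = fun x => ∏ i, Real.exp (-(x i)) := by
    funext x; exact orthant_exp_neg_sum N x
  rw [h, orthant_integral_prod N (fun _ u => Real.exp (-u))]
  simp only [integral_exp_neg_Ioi_zero, Finset.prod_const_one]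

theorem orthant_measurable_lin (N : ℕ) (a : Fin N → ℝ) :
    Measurable (fun x : Fin N → ℝ => ∑ i, a i * x i) := by
  fun_prop

theorem orthant_measurable_exp (N : ℕ) :
    Measurable (fun x : Fin N → ℝ => Real.exp (-∑ i, x i)) := by
  fun_prop

/-- bounded measurable `h`: the integrand of `J` is integrable on the orthant. -/
theorem orthant_integrableOn_bdd (N : ℕ) (a : Fin N → ℝ) (h : ℝ → ℝ) (hm : Measurable h) (C : ℝ)
    (hC : ∀ t, |h t| ≤ C) :
    IntegrableOn (fun x : Fin N → ℝ => h (∑ i, a i * x i) * Real.exp (-∑ i, x i))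
      (Set.pi Set.univ (fun _ : Fin N => Set.Ioi (0 : ℝ))) := by
  refine Integrable.mono' ((orthant_integrableOn_exp N).const_mul C) ?_ ?_
  · exact ((hm.comp (orthant_measurable_lin N a)).mul (orthant_measurable_exp N)).aestronglyMeasurable
  · refine Filter.Eventually.of_forall (fun x => ?_)
    rw [Real.norm_eq_abs, abs_mul, abs_of_pos (Real.exp_pos _)]
    exact mul_le_mul_of_nonneg_right (hC _) (Real.exp_pos _).le

theorem J_one (N : ℕ) (a : Fin N → ℝ) : J N a (fun _ => 1) = 1 := by
  unfold J
  simp only [one_mul]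
  exact orthant_integral_exp N

/-- `1 - h`. -/
theorem J_one_sub (N : ℕ) (a : Fin N → ℝ) (h : ℝ → ℝ) (hm : Measurable h) (C : ℝ)
    (hC : ∀ t, |h t| ≤ C) : J N a (fun t => 1 - h t) = 1 - J N a h := by
  unfold J
  have h1 : (fun x : Fin N → ℝ => (1 - h (∑ i, a i * x i)) * Real.exp (-∑ i, x i))
      = fun x => Real.exp (-∑ i, x i) - h (∑ i, a i * x i) * Real.exp (-∑ i, x i) := by
    funext x; ring
  rw [h1, integral_sub (orthant_integrableOn_exp N) (orthant_integrableOn_bdd N a h hm C hC),
    orthant_integral_exp]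

/-! ### Peeling a coordinate -/

theorem orthant_insertNthEquiv (N : ℕ) (i : Fin (N + 1)) (u : ℝ) (y : Fin N → ℝ) :
    (MeasurableEquiv.piFinSuccAbove (fun _ : Fin (N + 1) => ℝ) i).symm (u, y) = i.insertNth u y := by
  simp [MeasurableEquiv.piFinSuccAbove_symm_apply, Fin.insertNthEquiv]

/-- Fubini: peel coordinate `i` off an integral over the orthant (outer integral over `u`). -/
theorem orthant_peel (N : ℕ) (i : Fin (N + 1)) (f : (Fin (N + 1) → ℝ) → ℝ)
    (hf : IntegrableOn f (Set.pi Set.univ (fun _ : Fin (N + 1) => Set.Ioi (0 : ℝ)))) :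
    ∫ x in Set.pi Set.univ (fun _ : Fin (N + 1) => Set.Ioi (0 : ℝ)), f x
      = ∫ u in Set.Ioi (0 : ℝ),
          ∫ y in Set.pi Set.univ (fun _ : Fin N => Set.Ioi (0 : ℝ)), f (i.insertNth u y) := by
  have hmp := (measurePreserving_piFinSuccAbove
    (fun _ : Fin (N + 1) => (volume : Measure ℝ).restrict (Set.Ioi (0 : ℝ))) i).symm
  rw [orthant_restrict, orthant_restrict]
  unfold IntegrableOn at hf
  rw [orthant_restrict] at hf
  rw [← hmp.integral_comp']
  have hint : Integrable (fun p : ℝ × (Fin N → ℝ) =>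
      f ((MeasurableEquiv.piFinSuccAbove (fun _ : Fin (N + 1) => ℝ) i).symm p))
      (((volume : Measure ℝ).restrict (Set.Ioi (0 : ℝ))).prod
        (Measure.pi fun _ : Fin N => (volume : Measure ℝ).restrict (Set.Ioi (0 : ℝ)))) :=
    (hmp.integrable_comp_emb (MeasurableEquiv.measurableEmbedding _)).2 hf
  rw [integral_prod _ hint]
  simp only [orthant_insertNthEquiv]

/-- Fubini: peel coordinate `i` off an integral over the orthant (inner integral over `u`). -/
theorem orthant_peel_inner (N : ℕ) (i : Fin (N + 1)) (f : (Fin (N + 1) → ℝ) → ℝ)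
    (hf : IntegrableOn f (Set.pi Set.univ (fun _ : Fin (N + 1) => Set.Ioi (0 : ℝ)))) :
    ∫ x in Set.pi Set.univ (fun _ : Fin (N + 1) => Set.Ioi (0 : ℝ)), f x
      = ∫ y in Set.pi Set.univ (fun _ : Fin N => Set.Ioi (0 : ℝ)),
          ∫ u in Set.Ioi (0 : ℝ), f (i.insertNth u y) := by
  have hmp := (measurePreserving_piFinSuccAbove
    (fun _ : Fin (N + 1) => (volume : Measure ℝ).restrict (Set.Ioi (0 : ℝ))) i).symm
  rw [orthant_restrict, orthant_restrict]
  unfold IntegrableOn at hf
  rw [orthant_restrict] at hf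
  rw [← hmp.integral_comp']
  have hint : Integrable (fun p : ℝ × (Fin N → ℝ) =>
      f ((MeasurableEquiv.piFinSuccAbove (fun _ : Fin (N + 1) => ℝ) i).symm p))
      (((volume : Measure ℝ).restrict (Set.Ioi (0 : ℝ))).prod
        (Measure.pi fun _ : Fin N => (volume : Measure ℝ).restrict (Set.Ioi (0 : ℝ)))) :=
    (hmp.integrable_comp_emb (MeasurableEquiv.measurableEmbedding _)).2 hf
  rw [integral_prod_symm _ hint]
  simp only [orthant_insertNthEquiv]

theorem orthant_sum_insertNth (N : ℕ) (a : Fin (N + 1) → ℝ) (i : Fin (N + 1)) (u : ℝ)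
    (y : Fin N → ℝ) :
    ∑ k, a k * (i.insertNth u y : Fin (N + 1) → ℝ) k
      = a i * u + ∑ j, a (i.succAbove j) * y j := by
  rw [Fin.sum_univ_succAbove _ i]
  simp

theorem orthant_sum_insertNth' (N : ℕ) (i : Fin (N + 1)) (u : ℝ) (y : Fin N → ℝ) :
    ∑ k, (i.insertNth u y : Fin (N + 1) → ℝ) k = u + ∑ j, y j := by
  rw [Fin.sum_univ_succAbove _ i]
  simp

/-- peel coordinate `i`, inner form. -/
theorem J_inner (N : ℕ) (a : Fin (N + 1) → ℝ) (i : Fin (N + 1)) (h : ℝ → ℝ) (hm : Measurable h)
    (C : ℝ) (hC : ∀ t, |h t| ≤ C) :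
    J (N + 1) a h = J N (fun j => a (i.succAbove j))
      (fun t => ∫ u in Ioi (0 : ℝ), h (a i * u + t) * Real.exp (-u)) := by
  unfold J
  rw [orthant_peel_inner N i _ (orthant_integrableOn_bdd (N + 1) a h hm C hC)]
  congr 1
  funext y
  simp only [orthant_sum_insertNth, orthant_sum_insertNth']
  rw [← integral_mul_const]
  congr 1
  funext u
  rw [neg_add, Real.exp_add]
  ring

theorem surv_zero (a : Fin 0 → ℝ) (s : ℝ) : surv 0 a s = if s < 0 then 1 else 0 := by
  unfold surv J
  have h1 : (fun x : Fin 0 → ℝ => (Set.Ioi s).indicator (1 : ℝ → ℝ) (∑ i, a i * x i) *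
      Real.exp (-∑ i, x i)) = fun x => (Set.Ioi s).indicator (1 : ℝ → ℝ) 0 * Real.exp (-∑ i, x i) := by
    funext x
    simp
  rw [h1, integral_const_mul, orthant_integral_exp, mul_one]
  simp [Set.indicator_apply]

/-- peel coordinate `i`, outer form, for the survival function. -/
theorem surv_succ (N : ℕ) (a : Fin (N + 1) → ℝ) (i : Fin (N + 1)) :
    surv (N + 1) a = expAvg (a i) (surv N (fun j => a (i.succAbove j))) := by
  funext s
  have hm : Measurable ((Set.Ioi s).indicator (1 : ℝ → ℝ)) :=
    measurable_one.indicator measurableSet_Ioi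
  have hC : ∀ t, |(Set.Ioi s).indicator (1 : ℝ → ℝ) t| ≤ 1 := by
    intro t
    by_cases ht : t ∈ Set.Ioi s <;> simp [ht]
  unfold surv expAvg J
  rw [orthant_peel N i _ (orthant_integrableOn_bdd (N + 1) a _ hm 1 hC)]
  congr 1
  funext u
  simp only [orthant_sum_insertNth, orthant_sum_insertNth']
  rw [← integral_const_mul]
  congr 1
  funext y
  have hind : (Set.Ioi s).indicator (1 : ℝ → ℝ) (a i * u + ∑ j, a (i.succAbove j) * y j)
      = (Set.Ioi (s - a i * u)).indicator (1 : ℝ → ℝ) (∑ j, a (i.succAbove j) * y j) := by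
    simp only [Set.indicator_apply, Set.mem_Ioi, Pi.one_apply]
    congr 1
    apply propext
    constructor <;> intro hh <;> linarith
  rw [hind, neg_add, Real.exp_add]
  ring

/-! ### The law of `∑ a_i X_i` -/

theorem orthant_expPi_univ (N : ℕ) : expPi N Set.univ = 1 := by
  unfold expPi
  rw [withDensity_apply _ MeasurableSet.univ, Measure.restrict_univ,
    ← ofReal_integral_eq_lintegral_ofReal (orthant_integrableOn_exp N)
      (Filter.Eventually.of_forall (fun x => (Real.exp_pos _).le)),
    orthant_integral_exp, ENNReal.ofReal_one]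

theorem orthant_measurable_density (N : ℕ) :
    Measurable (fun x : Fin N → ℝ => ENNReal.ofReal (Real.exp (-∑ i, x i))) :=
  ENNReal.measurable_ofReal.comp (orthant_measurable_exp N)

/-- integrals against `expPi` are weighted integrals over the orthant. -/
theorem orthant_integral_expPi (N : ℕ) (g : (Fin N → ℝ) → ℝ) :
    ∫ x, g x ∂(expPi N)
      = ∫ x in Set.pi Set.univ (fun _ : Fin N => Set.Ioi (0 : ℝ)), g x * Real.exp (-∑ i, x i) := by
  unfold expPi
  rw [integral_withDensity_eq_integral_toReal_smul (orthant_measurable_density N)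
    (Filter.Eventually.of_forall (fun x => ENNReal.ofReal_lt_top))]
  congr 1
  funext x
  rw [ENNReal.toReal_ofReal (Real.exp_pos _).le, smul_eq_mul, mul_comm]

/-- integrability against `expPi` is weighted integrability over the orthant. -/
theorem orthant_integrable_expPi (N : ℕ) (g : (Fin N → ℝ) → ℝ) :
    Integrable g (expPi N)
      ↔ IntegrableOn (fun x => g x * Real.exp (-∑ i, x i))
          (Set.pi Set.univ (fun _ : Fin N => Set.Ioi (0 : ℝ))) := by
  unfold expPi IntegrableOn
  rw [integrable_withDensity_iff (orthant_measurable_density N)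
    (Filter.Eventually.of_forall (fun x => ENNReal.ofReal_lt_top))]
  simp only [ENNReal.toReal_ofReal (Real.exp_pos _).le]

instance law_isProbabilityMeasure (N : ℕ) (a : Fin N → ℝ) : IsProbabilityMeasure (law N a) := by
  have : IsProbabilityMeasure (expPi N) := ⟨orthant_expPi_univ N⟩
  unfold law
  exact Measure.isProbabilityMeasure_map (orthant_measurable_lin N a).aemeasurable

theorem integral_law (N : ℕ) (a : Fin N → ℝ) (h : ℝ → ℝ) (hm : Measurable h) (C : ℝ)
    (hC : ∀ t, |h t| ≤ C) : ∫ t, h t ∂(law N a) = J N a h := by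
  unfold law J
  rw [integral_map (orthant_measurable_lin N a).aemeasurable hm.aestronglyMeasurable,
    orthant_integral_expPi]

theorem law_Ioi (N : ℕ) (a : Fin N → ℝ) (s : ℝ) : ((law N a) (Ioi s)).toReal = surv N a s := by
  have hm : Measurable ((Set.Ioi s).indicator (1 : ℝ → ℝ)) :=
    measurable_one.indicator measurableSet_Ioi
  have hC : ∀ t, |(Set.Ioi s).indicator (1 : ℝ → ℝ) t| ≤ 1 := by
    intro t
    by_cases ht : t ∈ Set.Ioi s <;> simp [ht]
  unfold surv
  rw [← integral_law N a _ hm 1 hC, integral_indicator_one measurableSet_Ioi]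
  rfl

/-! ### First moment -/

theorem orthant_integrableOn_id_exp :
    IntegrableOn (fun u : ℝ => u * Real.exp (-u)) (Ioi (0 : ℝ)) := by
  have h := Real.GammaIntegral_convergent (s := 2) (by norm_num)
  refine h.congr_fun (fun u _ => ?_) measurableSet_Ioi
  have h1 : (2 : ℝ) - 1 = 1 := by norm_num
  simp only [h1, Real.rpow_one]
  ring

theorem orthant_integral_id_exp : ∫ u in Ioi (0 : ℝ), u * Real.exp (-u) = 1 := by
  have h := Real.Gamma_eq_integral (s := 2) (by norm_num)
  rw [Real.Gamma_two] at h
  rw [h]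
  congr 1
  funext u
  have h1 : (2 : ℝ) - 1 = 1 := by norm_num
  simp only [h1, Real.rpow_one]
  ring

/-- the integrand of the `i`-th first moment as a product integrand. -/
theorem orthant_coord_exp (N : ℕ) (i : Fin N) (x : Fin N → ℝ) :
    x i * Real.exp (-∑ j, x j)
      = ∏ j, (if j = i then x j else 1) * Real.exp (-(x j)) := by
  rw [Finset.prod_mul_distrib, ← orthant_exp_neg_sum, Finset.prod_ite_eq' Finset.univ i]
  simp

theorem orthant_integrableOn_coord (N : ℕ) (i : Fin N) :
    IntegrableOn (fun x : Fin N → ℝ => x i * Real.exp (-∑ j, x j))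
      (Set.pi Set.univ (fun _ : Fin N => Set.Ioi (0 : ℝ))) := by
  have h : (fun x : Fin N → ℝ => x i * Real.exp (-∑ j, x j))
      = fun x => ∏ j, (fun u : ℝ => (if j = i then u else 1) * Real.exp (-u)) (x j) := by
    funext x; exact orthant_coord_exp N i x
  rw [h]
  refine orthant_integrableOn_prod N (fun j u => (if j = i then u else 1) * Real.exp (-u))
    (fun j => ?_)
  by_cases hj : j = i
  · simp only [hj, if_true]
    exact orthant_integrableOn_id_exp
  · simp only [hj, if_false, one_mul]
    exact integrableOn_exp_neg_Ioi 0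

theorem orthant_integral_coord (N : ℕ) (i : Fin N) :
    ∫ x in Set.pi Set.univ (fun _ : Fin N => Set.Ioi (0 : ℝ)), x i * Real.exp (-∑ j, x j) = 1 := by
  have h : (fun x : Fin N → ℝ => x i * Real.exp (-∑ j, x j))
      = fun x => ∏ j, (fun u : ℝ => (if j = i then u else 1) * Real.exp (-u)) (x j) := by
    funext x; exact orthant_coord_exp N i x
  rw [h, orthant_integral_prod N (fun j u => (if j = i then u else 1) * Real.exp (-u))]
  refine Finset.prod_eq_one (fun j _ => ?_)
  by_cases hj : j = i
  · simp only [hj, if_true]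
    exact orthant_integral_id_exp
  · simp only [hj, if_false, one_mul]
    exact integral_exp_neg_Ioi_zero

theorem orthant_integrable_coord_expPi (N : ℕ) (i : Fin N) :
    Integrable (fun x : Fin N → ℝ => x i) (expPi N) :=
  (orthant_integrable_expPi N _).2 (orthant_integrableOn_coord N i)

theorem integrable_id_law (N : ℕ) (a : Fin N → ℝ) : Integrable (fun t : ℝ => t) (law N a) := by
  unfold law
  rw [integrable_map_measure (g := fun t : ℝ => t) measurable_id.aestronglyMeasurable
    (orthant_measurable_lin N a).aemeasurable]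
  change Integrable (fun x : Fin N → ℝ => ∑ i, a i * x i) (expPi N)
  exact integrable_finsetSum _ (fun i _ => (orthant_integrable_coord_expPi N i).const_mul (a i))

theorem integral_id_law (N : ℕ) (a : Fin N → ℝ) : ∫ t, t ∂(law N a) = ∑ i, a i := by
  unfold law
  rw [integral_map (f := fun t : ℝ => t) (orthant_measurable_lin N a).aemeasurable
      measurable_id.aestronglyMeasurable,
    integral_finsetSum _ (fun i _ => (orthant_integrable_coord_expPi N i).const_mul (a i))]
  refine Finset.sum_congr rfl (fun i _ => ?_)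
  rw [integral_const_mul, orthant_integral_expPi, orthant_integral_coord, mul_one]

/-! ### Exponential domination for equal coefficients -/

/-- for the sharpness family: all coefficients equal to `c`, `h` dominated by an exponential. -/
theorem J_const_le (N : ℕ) (c κ A : ℝ) (hκ : κ * c < 1) (hA : 0 ≤ A) (h : ℝ → ℝ)
    (hm : Measurable h) (C : ℝ) (hC : ∀ t, |h t| ≤ C)
    (hle : ∀ t, h t ≤ A * Real.exp (κ * t)) :
    J N (fun _ => c) h ≤ A * ((1 - κ * c)⁻¹) ^ N := by
  have hneg : -(1 - κ * c) < 0 := by linarith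
  have hint : IntegrableOn (fun x : Fin N → ℝ => ∏ i, Real.exp (-(1 - κ * c) * x i))
      (Set.pi Set.univ (fun _ : Fin N => Set.Ioi (0 : ℝ))) :=
    orthant_integrableOn_prod N (fun _ u => Real.exp (-(1 - κ * c) * u))
      (fun _ => integrableOn_exp_mul_Ioi hneg 0)
  have hval : ∫ x in Set.pi Set.univ (fun _ : Fin N => Set.Ioi (0 : ℝ)),
      A * ∏ i, Real.exp (-(1 - κ * c) * x i) = A * ((1 - κ * c)⁻¹) ^ N := by
    rw [integral_const_mul, orthant_integral_prod N (fun _ u => Real.exp (-(1 - κ * c) * u))]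
    simp only [integral_exp_mul_Ioi hneg 0, mul_zero, Real.exp_zero, Finset.prod_const,
      Finset.card_univ, Fintype.card_fin]
    congr 2
    rw [neg_div_neg_eq, one_div]
  rw [← hval]
  unfold J
  refine integral_mono (orthant_integrableOn_bdd N (fun _ => c) h hm C hC) (hint.const_mul A)
    (fun x => ?_)
  have hprod : ∏ i, Real.exp (-(1 - κ * c) * x i)
      = Real.exp (κ * ∑ i, c * x i) * Real.exp (-∑ i, x i) := by
    rw [← Real.exp_sum, ← Real.exp_add]
    congr 1
    rw [Finset.mul_sum, ← Finset.sum_neg_distrib, ← Finset.sum_add_distrib]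
    refine Finset.sum_congr rfl (fun i _ => ?_)
    ring
  show h (∑ i, c * x i) * Real.exp (-∑ i, x i) ≤ A * ∏ i, Real.exp (-(1 - κ * c) * x i)
  rw [hprod, ← mul_assoc]
  exact mul_le_mul_of_nonneg_right (hle _) (Real.exp_pos _).le

end Crest.Agent.S0423Lib
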