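/-
S0423 library, module S (sharpness family `a = (2, -2/M, …, -2/M)`).  Owner: helper8.
-/
import Crest.Agent.S0423Lib.Calc
import Crest.Agent.S0423Lib.Orthant

set_option autoImplicit false

namespace Crest.Agent.S0423Lib

open MeasureTheory Set Filter Topology

/-- the inner integral is measurable in the parameter. -/
theorem measurable_inner : Measurable
    (fun t : ℝ => ∫ u in Ioi (0 : ℝ), phi (2 * u + t) * Real.exp (-u)) := by
  have h : StronglyMeasurable (fun p : ℝ × ℝ => phi (2 * p.2 + p.1) * Real.exp (-p.2)) := by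
    apply Continuous.stronglyMeasurable
    have := phi_continuous
    fun_prop
  exact (h.integral_prod_right' (ν := volume.restrict (Ioi (0 : ℝ)))).measurable

theorem inner_abs_le (t : ℝ) :
    |∫ u in Ioi (0 : ℝ), phi (2 * u + t) * Real.exp (-u)| ≤ 1 := by
  have h0 : 0 ≤ ∫ u in Ioi (0 : ℝ), phi (2 * u + t) * Real.exp (-u) :=
    setIntegral_nonneg measurableSet_Ioi
      (fun u _ => mul_nonneg (phi_nonneg _) (Real.exp_pos _).le)
  rw [abs_of_nonneg h0]
  have hint : IntegrableOn (fun u : ℝ => Real.exp (-u)) (Ioi 0) := by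
    simpa using integrableOn_exp_neg_Ioi 0 -- placeholder
  calc ∫ u in Ioi (0 : ℝ), phi (2 * u + t) * Real.exp (-u)
      ≤ ∫ u in Ioi (0 : ℝ), Real.exp (-u) := by
        apply setIntegral_mono_on _ hint measurableSet_Ioi
        · intro u _
          have := phi_le_one (2 * u + t)
          have := Real.exp_pos (-u)
          nlinarith [phi_nonneg (2 * u + t)]
        · refine Integrable.mono' hint ?_ ?_
          · have := phi_continuous
            exact (Continuous.aestronglyMeasurable (by fun_prop))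
          · refine Filter.Eventually.of_forall (fun u => ?_)
            rw [Real.norm_eq_abs, abs_of_nonneg (mul_nonneg (phi_nonneg _) (Real.exp_pos _).le)]
            have := phi_le_one (2 * u + t)
            have := Real.exp_pos (-u)
            nlinarith [phi_nonneg (2 * u + t)]
    _ = 1 := by simpa using integral_exp_neg_Ioi_zero

theorem sharp (δ : ℝ) (hδ : 0 < δ) :
    ∃ (N : ℕ) (a : Fin N → ℝ), 1 ≤ N ∧ ∑ i, a i = 0 ∧ J N a phi < mstar + δ := by
  -- the limit
  have hlim : Tendsto (fun M : ℕ => 4 / 9 * Real.exp (2 / 3) * ((1 + 1 / (M : ℝ)) ^ M)⁻¹) atTop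
      (𝓝 (4 / 9 * Real.exp (2 / 3) * (Real.exp 1)⁻¹)) := by
    have h1 := Real.tendsto_one_add_div_pow_exp 1
    exact (h1.inv₀ (Real.exp_pos 1).ne').const_mul _
  have hval : 4 / 9 * Real.exp (2 / 3) * (Real.exp 1)⁻¹ = mstar := by
    unfold mstar
    rw [← Real.exp_neg, mul_assoc, ← Real.exp_add]
    norm_num
  rw [hval] at hlim
  have hev := (tendsto_order.1 hlim).2 (mstar + δ) (by linarith)
  obtain ⟨M, hM, hM1⟩ := (hev.and (eventually_ge_atTop 1)).exists
  have hMpos : (0 : ℝ) < M := by exact_mod_cast hM1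
  refine ⟨M + 1, Fin.cons 2 (fun _ => -2 / (M : ℝ)), by omega, ?_, ?_⟩
  · rw [Fin.sum_univ_succ]
    simp only [Fin.cons_zero, Fin.cons_succ, Finset.sum_const, Finset.card_fin, nsmul_eq_mul]
    field_simp
    ring
  · have hphi_m : Measurable phi := phi_continuous.measurable
    have hphi_b : ∀ t, |phi t| ≤ 1 := fun t => by
      rw [abs_of_nonneg (phi_nonneg t)]; exact phi_le_one t
    rw [J_inner M _ 0 phi hphi_m 1 hphi_b]
    simp only [Fin.cons_zero, Fin.succAbove_zero, Fin.cons_succ]
    have hle := J_const_le M (-2 / (M : ℝ)) (1 / 2) (4 / 9 * Real.exp (2 / 3)) (by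
        have : (1:ℝ) / 2 * (-2 / (M:ℝ)) = -(1 / M) := by field_simp
        rw [this]
        have : (0:ℝ) < 1 / M := by positivity
        linarith) (by positivity)
      (fun t : ℝ => ∫ u in Ioi (0 : ℝ), phi (2 * u + t) * Real.exp (-u)) measurable_inner 1
      inner_abs_le (fun t => by
        have h := inner_le t
        have : Real.exp ((4 / 3 + t) / 2) = Real.exp (2 / 3) * Real.exp (1 / 2 * t) := by
          rw [← Real.exp_add]; ring_nf
        rw [this] at h
        linarith)
    have hk : (1 - 1 / 2 * (-2 / (M : ℝ)))⁻¹ ^ M = ((1 + 1 / (M : ℝ)) ^ M)⁻¹ := by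
      rw [inv_pow]
      congr 2
      field_simp
      ring
    rw [hk] at hle
    exact lt_of_le_of_lt hle hM

end Crest.Agent.S0423Lib
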