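/-
S0423 library, module L (layer cake formulas for a finite measure on ℝ).  Owner: helper8.
Both are Fubini/Tonelli on `ν × volume` for the sets `{(x, s) | s < x}` etc.
-/
import Crest.Agent.S0423Lib.Defs

set_option autoImplicit false

namespace Crest.Agent.S0423Lib

open MeasureTheory Set

/-- `∫ W(x) dν(x) = ∫ w(s) ν(s, ∞) ds` for `W(x) = ∫_{-∞}^x w`. -/
theorem layercake_Ioi (ν : Measure ℝ) [IsFiniteMeasure ν] (w : ℝ → ℝ) (_hwm : Measurable w)
    (_hw0 : ∀ s, 0 ≤ w s) (hwi : Integrable w) :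
    ∫ x, (∫ s in Iio x, w s) ∂ν = ∫ s, w s * (ν (Ioi s)).toReal := by
  have hmeas_set : MeasurableSet {z : ℝ × ℝ | z.2 < z.1} :=
    measurableSet_lt measurable_snd measurable_fst
  have hint : Integrable ({z : ℝ × ℝ | z.2 < z.1}.indicator (fun z : ℝ × ℝ => w z.2))
      (ν.prod volume) := (hwi.comp_snd ν).indicator hmeas_set
  have h1 := integral_prod _ hint
  have h2 := integral_prod_symm _ hint
  rw [h1] at h2
  have hL : ∀ x : ℝ, ∫ s, {z : ℝ × ℝ | z.2 < z.1}.indicator (fun z : ℝ × ℝ => w z.2) (x, s)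
      = ∫ s in Iio x, w s := by
    intro x
    rw [← integral_indicator measurableSet_Iio]
    congr 1
  have hR : ∀ s : ℝ, ∫ x, {z : ℝ × ℝ | z.2 < z.1}.indicator (fun z : ℝ × ℝ => w z.2) (x, s) ∂ν
      = w s * (ν (Ioi s)).toReal := by
    intro s
    have : (fun x : ℝ => {z : ℝ × ℝ | z.2 < z.1}.indicator (fun z : ℝ × ℝ => w z.2) (x, s))
        = (Ioi s).indicator (fun _ => w s) := by
      funext x
      simp only [indicator, Set.mem_ofPred_eq, mem_Ioi]
    rw [this, integral_indicator_const _ measurableSet_Ioi]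
    simp only [Measure.real, smul_eq_mul, mul_comm]
  simp only [hL, hR] at h2
  exact h2

theorem layercake_aux_pos (ν : Measure ℝ) [SFinite ν] :
    ∫⁻ x, ENNReal.ofReal x ∂ν = ∫⁻ s in Ioi 0, ν (Ioi s) := by
  have hS : MeasurableSet {z : ℝ × ℝ | 0 < z.2 ∧ z.2 < z.1} :=
    (measurableSet_lt measurable_const measurable_snd).inter
      (measurableSet_lt measurable_snd measurable_fst)
  have h1 := Measure.prod_apply (μ := ν) (ν := (volume : Measure ℝ)) hS
  have h2 := Measure.prod_apply_symm (μ := ν) (ν := (volume : Measure ℝ)) hS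
  rw [h1] at h2
  have hL : ∀ x : ℝ, volume (Prod.mk x ⁻¹' {z : ℝ × ℝ | 0 < z.2 ∧ z.2 < z.1})
      = ENNReal.ofReal x := by
    intro x
    have : Prod.mk x ⁻¹' {z : ℝ × ℝ | 0 < z.2 ∧ z.2 < z.1} = Ioo 0 x := by
      ext s; simp
    rw [this, Real.volume_Ioo, sub_zero]
  have hR : ∀ s : ℝ, ν ((fun x => (x, s)) ⁻¹' {z : ℝ × ℝ | 0 < z.2 ∧ z.2 < z.1})
      = (Ioi (0 : ℝ)).indicator (fun s => ν (Ioi s)) s := by
    intro s
    by_cases hs : 0 < s
    · have : (fun x => (x, s)) ⁻¹' {z : ℝ × ℝ | 0 < z.2 ∧ z.2 < z.1} = Ioi s := by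
        ext x; simp [hs]
      rw [this, indicator_of_mem (by exact hs)]
    · have : (fun x => (x, s)) ⁻¹' {z : ℝ × ℝ | 0 < z.2 ∧ z.2 < z.1} = ∅ := by
        ext x; simp [hs]
      rw [this, indicator_of_notMem (by exact hs), measure_empty]
  simp only [hL, hR] at h2
  rw [h2, lintegral_indicator measurableSet_Ioi]

theorem layercake_aux_neg (ν : Measure ℝ) [SFinite ν] :
    ∫⁻ x, ENNReal.ofReal (-x) ∂ν = ∫⁻ s in Iic 0, ν (Iic s) := by
  have hS : MeasurableSet {z : ℝ × ℝ | z.1 ≤ z.2 ∧ z.2 ≤ 0} :=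
    (measurableSet_le measurable_fst measurable_snd).inter
      (measurableSet_le measurable_snd measurable_const)
  have h1 := Measure.prod_apply (μ := ν) (ν := (volume : Measure ℝ)) hS
  have h2 := Measure.prod_apply_symm (μ := ν) (ν := (volume : Measure ℝ)) hS
  rw [h1] at h2
  have hL : ∀ x : ℝ, volume (Prod.mk x ⁻¹' {z : ℝ × ℝ | z.1 ≤ z.2 ∧ z.2 ≤ 0})
      = ENNReal.ofReal (-x) := by
    intro x
    have : Prod.mk x ⁻¹' {z : ℝ × ℝ | z.1 ≤ z.2 ∧ z.2 ≤ 0} = Icc x 0 := by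
      ext s; simp
    rw [this, Real.volume_Icc, zero_sub]
  have hR : ∀ s : ℝ, ν ((fun x => (x, s)) ⁻¹' {z : ℝ × ℝ | z.1 ≤ z.2 ∧ z.2 ≤ 0})
      = (Iic (0 : ℝ)).indicator (fun s => ν (Iic s)) s := by
    intro s
    by_cases hs : s ≤ 0
    · have : (fun x => (x, s)) ⁻¹' {z : ℝ × ℝ | z.1 ≤ z.2 ∧ z.2 ≤ 0} = Iic s := by
        ext x; simp [hs]
      rw [this, indicator_of_mem (by exact hs)]
    · have : (fun x => (x, s)) ⁻¹' {z : ℝ × ℝ | z.1 ≤ z.2 ∧ z.2 ≤ 0} = ∅ := by
        ext x; simp [hs]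
      rw [this, indicator_of_notMem (by exact hs), measure_empty]
  simp only [hL, hR] at h2
  rw [h2, lintegral_indicator measurableSet_Iic]

/-- the mean of a probability measure on `ℝ` in terms of its survival function. -/
theorem layercake_mean (ν : Measure ℝ) [IsProbabilityMeasure ν]
    (hν : Integrable (fun x : ℝ => x) ν) :
    IntegrableOn (fun s => (ν (Ioi s)).toReal) (Ioi 0) ∧
    IntegrableOn (fun s => 1 - (ν (Ioi s)).toReal) (Iic 0) ∧
    ∫ x, x ∂ν = (∫ s in Ioi 0, (ν (Ioi s)).toReal) - ∫ s in Iic 0, (1 - (ν (Ioi s)).toReal) := by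
  have hmeas1 : Measurable (fun s : ℝ => ν (Ioi s)) :=
    Antitone.measurable (fun s t hst => measure_mono (Ioi_subset_Ioi hst))
  have hmeas2 : Measurable (fun s : ℝ => ν (Iic s)) :=
    Monotone.measurable (fun s t hst => measure_mono (Iic_subset_Iic.mpr hst))
  have hfin1 : ∫⁻ s in Ioi 0, ν (Ioi s) ≠ ⊤ := by
    rw [← layercake_aux_pos]
    exact (hν.lintegral_lt_top).ne
  have hfin2 : ∫⁻ s in Iic 0, ν (Iic s) ≠ ⊤ := by
    rw [← layercake_aux_neg]
    exact (hν.neg.lintegral_lt_top).ne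
  have hcompl : ∀ s : ℝ, (ν (Iic s)).toReal = 1 - (ν (Ioi s)).toReal := by
    intro s
    have h : ν (Iic s) + ν (Ioi s) = 1 := by
      rw [← measure_union (Set.Iic_disjoint_Ioi le_rfl) measurableSet_Ioi,
        Iic_union_Ioi, measure_univ]
    have h' := congrArg ENNReal.toReal h
    rw [ENNReal.toReal_add (measure_ne_top _ _) (measure_ne_top _ _)] at h'
    simp only [ENNReal.toReal_one] at h'
    linarith
  have hI1 : IntegrableOn (fun s => (ν (Ioi s)).toReal) (Ioi 0) :=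
    integrable_toReal_of_lintegral_ne_top hmeas1.aemeasurable hfin1
  have hI2' : IntegrableOn (fun s => (ν (Iic s)).toReal) (Iic 0) :=
    integrable_toReal_of_lintegral_ne_top hmeas2.aemeasurable hfin2
  have hI2 : IntegrableOn (fun s => 1 - (ν (Ioi s)).toReal) (Iic 0) := by
    simpa only [hcompl] using hI2'
  refine ⟨hI1, hI2, ?_⟩
  rw [integral_eq_lintegral_pos_part_sub_lintegral_neg_part hν, layercake_aux_pos,
    layercake_aux_neg]
  rw [integral_toReal hmeas1.aemeasurable (Filter.Eventually.of_forall fun s => measure_lt_top _ _)]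
  have : ∫ s in Iic 0, (1 - (ν (Ioi s)).toReal) = ∫ s in Iic 0, (ν (Iic s)).toReal := by
    simp only [hcompl]
  rw [this,
    integral_toReal hmeas2.aemeasurable (Filter.Eventually.of_forall fun s => measure_lt_top _ _)]

end Crest.Agent.S0423Lib
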