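/-
S0423 library, module E (the shifted exponential `β + b X`: survival function `expSurv β b`).
Owner: helper8.
-/
import Crest.Agent.S0423Lib.Calc
import Crest.Agent.S0423Lib.LayerCake

set_option autoImplicit false

namespace Crest.Agent.S0423Lib

open MeasureTheory Set

/-- the standard exponential law. -/
noncomputable def expMeas : Measure ℝ :=
  (volume.restrict (Ioi 0)).withDensity (fun u => ENNReal.ofReal (Real.exp (-u)))

theorem expMeas_density_measurable :
    Measurable (fun u : ℝ => ENNReal.ofReal (Real.exp (-u))) := by fun_prop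

theorem integral_expMeas (g : ℝ → ℝ) :
    ∫ u, g u ∂expMeas = ∫ u in Ioi (0 : ℝ), Real.exp (-u) * g u := by
  unfold expMeas
  rw [integral_withDensity_eq_integral_toReal_smul expMeas_density_measurable
    (Filter.Eventually.of_forall fun _ => ENNReal.ofReal_lt_top)]
  congr 1
  funext u
  rw [ENNReal.toReal_ofReal (Real.exp_pos _).le, smul_eq_mul]

theorem integrable_expMeas_iff (g : ℝ → ℝ) :
    Integrable g expMeas ↔ IntegrableOn (fun u => Real.exp (-u) * g u) (Ioi 0) := by
  unfold expMeas
  rw [integrable_withDensity_iff_integrable_smul' expMeas_density_measurable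
    (Filter.Eventually.of_forall fun _ => ENNReal.ofReal_lt_top)]
  simp only [ENNReal.toReal_ofReal (Real.exp_pos _).le, smul_eq_mul, IntegrableOn]

instance expMeas_isProbabilityMeasure : IsProbabilityMeasure expMeas := by
  constructor
  unfold expMeas
  rw [withDensity_apply _ MeasurableSet.univ, Measure.restrict_univ,
    ← ofReal_integral_eq_lintegral_ofReal (integrableOn_exp_neg_Ioi 0)
      (Filter.Eventually.of_forall fun u => (Real.exp_pos _).le),
    integral_exp_neg_Ioi_zero, ENNReal.ofReal_one]

/-- the law of `β + b X`. -/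
noncomputable def expLaw (β b : ℝ) : Measure ℝ := Measure.map (fun u => β + b * u) expMeas

instance expLaw_isProbabilityMeasure (β b : ℝ) : IsProbabilityMeasure (expLaw β b) :=
  Measure.isProbabilityMeasure_map (by fun_prop)

theorem integral_expLaw (β b : ℝ) (h : ℝ → ℝ) (hm : Measurable h) :
    ∫ t, h t ∂(expLaw β b) = ∫ u in Ioi (0 : ℝ), Real.exp (-u) * h (β + b * u) := by
  unfold expLaw
  rw [integral_map (by fun_prop) hm.aestronglyMeasurable, integral_expMeas]

theorem expLaw_Ioi (β b : ℝ) (hb : 0 < b) (s : ℝ) :
    ((expLaw β b) (Ioi s)).toReal = expSurv β b s := by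
  have h1 : ((expLaw β b) (Ioi s)).toReal
      = ∫ t, (Ioi s).indicator (fun _ => (1 : ℝ)) t ∂(expLaw β b) := by
    rw [integral_indicator_const _ measurableSet_Ioi]
    simp [Measure.real]
  rw [h1, integral_expLaw _ _ _ (measurable_const.indicator measurableSet_Ioi)]
  have h2 : ∀ u : ℝ, Real.exp (-u) * (Ioi s).indicator (fun _ => (1 : ℝ)) (β + b * u)
      = (Ioi ((s - β) / b)).indicator (fun u => Real.exp (-u)) u := by
    intro u
    by_cases hu : (s - β) / b < u
    · have : s < β + b * u := by
        rw [div_lt_iff₀ hb] at hu; linarith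
      simp [indicator, hu, this]
    · have : ¬ s < β + b * u := by
        rw [div_lt_iff₀ hb] at hu; push Not at hu ⊢; linarith
      simp [indicator, hu, this]
  simp only [h2]
  rw [integral_indicator measurableSet_Ioi, Measure.restrict_restrict measurableSet_Ioi,
    Ioi_inter_Ioi, integral_exp_neg_Ioi]
  unfold expSurv
  have e : -(s - β) / b = -((s - β) / b) := by ring
  rw [e]
  rcases le_total ((s - β) / b) 0 with h | h
  · rw [sup_of_le_right h, neg_zero, Real.exp_zero, min_eq_left]
    rw [Real.one_le_exp_iff]; linarith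
  · rw [sup_of_le_left h, min_eq_right]
    rw [Real.exp_le_one_iff]; linarith

theorem integrableOn_exp_mul_id : IntegrableOn (fun u : ℝ => Real.exp (-u) * u) (Ioi 0) := by
  have h := Real.GammaIntegral_convergent (s := 2) (by norm_num)
  refine h.congr_fun (fun u _ => ?_) measurableSet_Ioi
  norm_num

theorem integral_exp_mul_id : ∫ u in Ioi (0 : ℝ), Real.exp (-u) * u = 1 := by
  have h := Real.Gamma_eq_integral (s := 2) (by norm_num)
  rw [Real.Gamma_two] at h
  rw [h]
  refine setIntegral_congr_fun measurableSet_Ioi (fun u _ => ?_)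
  norm_num

theorem integrable_id_expLaw (β b : ℝ) : Integrable (fun t : ℝ => t) (expLaw β b) := by
  unfold expLaw
  rw [integrable_map_measure (by fun_prop) (by fun_prop), integrable_expMeas_iff]
  have h1 : IntegrableOn (fun u : ℝ => Real.exp (-u)) (Ioi 0) := integrableOn_exp_neg_Ioi 0
  have h2 : IntegrableOn (fun u : ℝ => β * Real.exp (-u) + b * (Real.exp (-u) * u)) (Ioi 0) :=
    (h1.const_mul β).add (integrableOn_exp_mul_id.const_mul b)
  refine h2.congr_fun (fun u _ => ?_) measurableSet_Ioi
  simp only [Function.comp]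
  ring

theorem integral_id_expLaw (β b : ℝ) : ∫ t, t ∂(expLaw β b) = β + b := by
  rw [integral_expLaw β b (fun t => t) measurable_id]
  have h1 : IntegrableOn (fun u : ℝ => Real.exp (-u)) (Ioi 0) := integrableOn_exp_neg_Ioi 0
  have : ∀ u : ℝ, Real.exp (-u) * (β + b * u) = β * Real.exp (-u) + b * (Real.exp (-u) * u) := by
    intro u; ring
  simp only [this]
  rw [integral_add (h1.const_mul β) (integrableOn_exp_mul_id.const_mul b), integral_const_mul,
    integral_const_mul, integral_exp_neg_Ioi_zero, integral_exp_mul_id]
  ring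

theorem expSurv_integrableOn_Ioi (β b : ℝ) (hb : 0 < b) : IntegrableOn (expSurv β b) (Ioi 0) := by
  have h := (layercake_mean (expLaw β b) (integrable_id_expLaw β b)).1
  simpa only [expLaw_Ioi β b hb] using h

theorem one_sub_expSurv_integrableOn_Iic (β b : ℝ) (hb : 0 < b) :
    IntegrableOn (fun s => 1 - expSurv β b s) (Iic 0) := by
  have h := (layercake_mean (expLaw β b) (integrable_id_expLaw β b)).2.1
  simpa only [expLaw_Ioi β b hb] using h

/-- mean of `β + b X` via its survival function. -/
theorem expSurv_mean (β b : ℝ) (hb : 0 < b) :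
    (∫ s in Ioi 0, expSurv β b s) - ∫ s in Iic 0, (1 - expSurv β b s) = β + b := by
  have h := (layercake_mean (expLaw β b) (integrable_id_expLaw β b)).2.2
  simp only [expLaw_Ioi β b hb] at h
  rw [← h, integral_id_expLaw]

/-- `E phi(β + b X)` via the survival function. -/
theorem integral_wt_mul_expSurv (β b : ℝ) (hb : 0 < b) :
    ∫ s, wt s * expSurv β b s = ∫ u in Ioi (0 : ℝ), phi (β + b * u) * Real.exp (-u) := by
  have h := layercake_Ioi (expLaw β b) wt wt_continuous.measurable wt_nonneg wt_integrable
  simp only [expLaw_Ioi β b hb, ← phi_eq_integral] at h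
  rw [← h, integral_expLaw β b phi phi_continuous.measurable]
  congr 1
  funext u
  ring

end Crest.Agent.S0423Lib
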