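/-
S0423 library, module X (chord comparison with a shifted exponential).  Owner: helper8.
-/
import Crest.Agent.S0423Lib.Calc
import Crest.Agent.S0423Lib.ExpLaw

set_option autoImplicit false

namespace Crest.Agent.S0423Lib

open MeasureTheory Set

/-! ### facts on `log ∘ G` -/

theorem IsLCSurv.log_nonpos {G : ℝ → ℝ} (hG : IsLCSurv G) (s : ℝ) : Real.log (G s) ≤ 0 :=
  Real.log_nonpos (hG.pos s).le (hG.le_one s)

theorem IsLCSurv.log_anti {G : ℝ → ℝ} (hG : IsLCSurv G) {s t : ℝ} (h : s ≤ t) :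
    Real.log (G t) ≤ Real.log (G s) :=
  Real.log_le_log (hG.pos t) (hG.anti h)

theorem IsLCSurv.log_cont {G : ℝ → ℝ} (hG : IsLCSurv G) : Continuous (fun s => Real.log (G s)) :=
  hG.cont.log (fun s => (hG.pos s).ne')

theorem IsLCSurv.three_slope {G : ℝ → ℝ} (hG : IsLCSurv G) {x y z : ℝ} (hxy : x < y)
    (hyz : y < z) :
    (Real.log (G z) - Real.log (G y)) * (y - x) ≤ (Real.log (G y) - Real.log (G x)) * (z - y) := by
  have h := hG.conc.slope_anti_adjacent (mem_univ x) (mem_univ z) hxy hyz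
  rw [div_le_div_iff₀ (by linarith) (by linarith)] at h
  linarith

/-- the chord exponential is below `G` on `[p,q]` and above `G` outside. -/
theorem IsLCSurv.chord_pointwise {G : ℝ → ℝ} (hG : IsLCSurv G) {p q : ℝ} (hpq : p < q) {lam : ℝ}
    (hlam : lam * (q - p) = Real.log (G p) - Real.log (G q)) (s : ℝ) :
    (s ∈ Icc p q → min 1 (Real.exp (Real.log (G p) - lam * (s - p))) ≤ G s) ∧
    (s ∉ Icc p q → G s ≤ min 1 (Real.exp (Real.log (G p) - lam * (s - p)))) := by
  have hGs : G s = Real.exp (Real.log (G s)) := (Real.exp_log (hG.pos s)).symm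
  have hqp : 0 < q - p := by linarith
  constructor
  · rintro ⟨h1, h2⟩
    refine le_trans (min_le_right _ _) ?_
    rw [hGs]
    apply Real.exp_le_exp.mpr
    rcases h1.eq_or_lt with h1 | h1
    · subst h1; simp
    rcases h2.eq_or_lt with h2 | h2
    · subst h2
      have : lam * (s - p) = Real.log (G p) - Real.log (G s) := hlam
      linarith
    have h3 := hG.three_slope h1 h2
    -- (ℓq - ℓs)(s - p) ≤ (ℓs - ℓp)(q - s)
    have h4 : (Real.log (G p) - lam * (s - p)) * (q - p)
        = Real.log (G p) * (q - s) + Real.log (G q) * (s - p) := by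
      have : lam * (s - p) * (q - p) = (Real.log (G p) - Real.log (G q)) * (s - p) := by
        rw [← hlam]; ring
      linear_combination -this
    have h5 : (Real.log (G p) - lam * (s - p)) * (q - p) ≤ Real.log (G s) * (q - p) := by
      rw [h4]; linarith
    exact le_of_mul_le_mul_right h5 hqp
  · intro hs
    have hs' : s < p ∨ q < s := by
      by_contra hcon
      push Not at hcon
      exact hs ⟨hcon.1, hcon.2⟩
    refine le_min (hG.le_one s) ?_
    rw [hGs]
    apply Real.exp_le_exp.mpr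
    rcases hs' with h | h
    · have h3 := hG.three_slope h hpq
      -- (ℓq - ℓp)(p - s) ≤ (ℓp - ℓs)(q - p)
      have h5 : Real.log (G s) * (q - p) ≤ (Real.log (G p) - lam * (s - p)) * (q - p) := by
        have : lam * (s - p) * (q - p) = (Real.log (G p) - Real.log (G q)) * (s - p) := by
          rw [← hlam]; ring
        nlinarith
      exact le_of_mul_le_mul_right h5 hqp
    · have h3 := hG.three_slope hpq h
      -- (ℓs - ℓq)(q - p) ≤ (ℓq - ℓp)(s - q)
      have h5 : Real.log (G s) * (q - p) ≤ (Real.log (G p) - lam * (s - p)) * (q - p) := by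
        have : lam * (s - p) * (q - p) = (Real.log (G p) - Real.log (G q)) * (s - p) := by
          rw [← hlam]; ring
        nlinarith
      exact le_of_mul_le_mul_right h5 hqp

theorem expSurv_chord {p lp lam : ℝ} (hlam : 0 < lam) (s : ℝ) :
    expSurv (p + lp / lam) (1 / lam) s = min 1 (Real.exp (lp - lam * (s - p))) := by
  unfold expSurv
  congr 2
  field_simp
  ring

theorem integrable_wt_mul {F : ℝ → ℝ} (hF : Continuous F) (h0 : ∀ s, 0 ≤ F s)
    (h1 : ∀ s, F s ≤ 1) : Integrable (fun s => wt s * F s) := by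
  refine Integrable.mono' wt_integrable ?_ ?_
  · exact (wt_continuous.mul hF).aestronglyMeasurable
  · refine Filter.Eventually.of_forall (fun s => ?_)
    rw [Real.norm_eq_abs, abs_of_nonneg (mul_nonneg (wt_nonneg s) (h0 s))]
    have := wt_nonneg s
    nlinarith [h0 s, h1 s]

/-- **Chord inequality**: comparison of `E phi` with a shifted exponential through two points of
the graph of `log G`. -/
theorem IsLCSurv.chord_ineq {G : ℝ → ℝ} (hG : IsLCSurv G)
    (hint1 : IntegrableOn G (Ioi 0)) (hint2 : IntegrableOn (fun s => 1 - G s) (Iic 0))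
    (hmean : (∫ s in Ioi 0, G s) - ∫ s in Iic 0, (1 - G s) = 0)
    {p q c : ℝ} (hpq : p < q) (hc_in : ∀ s ∈ Icc p q, c ≤ wt s)
    (hc_out : ∀ s, s ∉ Icc p q → wt s ≤ c)
    {lam : ℝ} (hlam0 : 0 < lam) (hlam : lam * (q - p) = Real.log (G p) - Real.log (G q)) :
    (∫ u in Ioi (0 : ℝ), phi (p + Real.log (G p) / lam + 1 / lam * u) * Real.exp (-u))
      - c * (p + Real.log (G p) / lam + 1 / lam) ≤ ∫ s, wt s * G s := by
  have hb0 : 0 < 1 / lam := by positivity
  have hEs : ∀ s, expSurv (p + Real.log (G p) / lam) (1 / lam) s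
      = min 1 (Real.exp (Real.log (G p) - lam * (s - p))) := fun s => expSurv_chord hlam0 s
  have hE1 := expSurv_integrableOn_Ioi (p + Real.log (G p) / lam) (1 / lam) hb0
  have hE2 := one_sub_expSurv_integrableOn_Iic (p + Real.log (G p) / lam) (1 / lam) hb0
  have hEm := expSurv_mean (p + Real.log (G p) / lam) (1 / lam) hb0
  have hEw := integral_wt_mul_expSurv (p + Real.log (G p) / lam) (1 / lam) hb0
  generalize expSurv (p + Real.log (G p) / lam) (1 / lam) = E at hEs hE1 hE2 hEm hEw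
  -- pointwise
  have hpt : ∀ s, c * (G s - E s) ≤ wt s * G s - wt s * E s := by
    intro s
    have h := hG.chord_pointwise hpq hlam s
    rw [← hEs s] at h
    by_cases hs : s ∈ Icc p q
    · have h1 := h.1 hs
      have h2 := hc_in s hs
      nlinarith
    · have h1 := h.2 hs
      have h2 := hc_out s hs
      nlinarith
  have hE_cont : Continuous E := by
    have : E = fun s => min 1 (Real.exp (Real.log (G p) - lam * (s - p))) := funext hEs
    rw [this]; fun_prop
  have hE0 : ∀ s, 0 ≤ E s := fun s => by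
    rw [hEs]; exact le_min zero_le_one (Real.exp_pos _).le
  have hE_le : ∀ s, E s ≤ 1 := fun s => by rw [hEs]; exact min_le_left _ _
  have hwG : Integrable (fun s => wt s * G s) :=
    integrable_wt_mul hG.cont (fun s => (hG.pos s).le) hG.le_one
  have hwE : Integrable (fun s => wt s * E s) := integrable_wt_mul hE_cont hE0 hE_le
  have hD1 : IntegrableOn (fun s => G s - E s) (Ioi 0) := hint1.sub hE1
  have hD2 : IntegrableOn (fun s => G s - E s) (Iic 0) := by
    have := hE2.sub hint2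
    refine this.congr_fun (fun s _ => ?_) measurableSet_Iic
    simp only [Pi.sub_apply]; ring
  have hD : Integrable (fun s => G s - E s) := by
    rw [← integrableOn_univ, ← Iic_union_Ioi (a := (0 : ℝ))]
    exact hD2.union hD1
  have hDint : ∫ s, (G s - E s) = -(p + Real.log (G p) / lam + 1 / lam) := by
    rw [← intervalIntegral.integral_Iic_add_Ioi hD2 hD1, integral_sub hint1 hE1]
    have h3 : ∫ s in Iic 0, (G s - E s) = (∫ s in Iic 0, (1 - E s)) - ∫ s in Iic 0, (1 - G s) := by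
      rw [← integral_sub hE2 hint2]
      congr 1
      funext s
      ring
    rw [h3]
    linarith
  have hmono : ∫ s, c * (G s - E s) ≤ ∫ s, (wt s * G s - wt s * E s) :=
    integral_mono (hD.const_mul c) (hwG.sub hwE) hpt
  rw [integral_const_mul, hDint, integral_sub hwG hwE, hEw] at hmono
  linarith

/-! ### comparison of shifted exponentials with the centred one -/

theorem integrableOn_phi_affine (β b : ℝ) :
    IntegrableOn (fun u => phi (β + b * u) * Real.exp (-u)) (Ioi 0) := by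
  have hint : IntegrableOn (fun u : ℝ => Real.exp (-u)) (Ioi 0) := integrableOn_exp_neg_Ioi 0
  refine Integrable.mono' hint ?_ ?_
  · have := phi_continuous
    exact (Continuous.aestronglyMeasurable (by fun_prop))
  · refine Filter.Eventually.of_forall (fun u => ?_)
    rw [Real.norm_eq_abs, abs_of_nonneg (mul_nonneg (phi_nonneg _) (Real.exp_pos _).le)]
    have := phi_le_one (β + b * u)
    have := Real.exp_pos (-u)
    nlinarith [phi_nonneg (β + b * u)]

theorem Phi_ge_of_nonneg {b μ : ℝ} (hb : 0 < b) (hμ : 0 ≤ μ) :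
    mstar ≤ ∫ u in Ioi (0 : ℝ), phi (μ - b + b * u) * Real.exp (-u) := by
  refine le_trans (v_ge b hb) ?_
  apply setIntegral_mono_on (integrableOn_phi_affine _ _) (integrableOn_phi_affine _ _)
    measurableSet_Ioi
  intro u _
  have : phi (-b + b * u) ≤ phi (μ - b + b * u) := phi_mono (by linarith)
  exact mul_le_mul_of_nonneg_right this (Real.exp_pos _).le

theorem Phi_ge_of_nonpos {b μ : ℝ} (hb : 0 < b) (hμ : μ ≤ 0) :
    mstar + Real.exp (-1) * μ ≤ ∫ u in Ioi (0 : ℝ), phi (μ - b + b * u) * Real.exp (-u) := by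
  have h1 := v_ge b hb
  have hint : IntegrableOn (fun u : ℝ => Real.exp (-u)) (Ioi 0) := integrableOn_exp_neg_Ioi 0
  have h2 : ∫ u in Ioi (0 : ℝ),
      (phi (-b + b * u) * Real.exp (-u) - (Real.exp (-1) * (-μ)) * Real.exp (-u))
        ≤ ∫ u in Ioi (0 : ℝ), phi (μ - b + b * u) * Real.exp (-u) := by
    apply setIntegral_mono_on ((integrableOn_phi_affine _ _).sub (hint.const_mul _))
      (integrableOn_phi_affine _ _) measurableSet_Ioi
    intro u _
    have := phi_sub_le (x := μ - b + b * u) (y := -b + b * u) (by linarith)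
    have he := Real.exp_pos (-u)
    show phi (-b + b * u) * Real.exp (-u) - (Real.exp (-1) * (-μ)) * Real.exp (-u)
        ≤ phi (μ - b + b * u) * Real.exp (-u)
    nlinarith
  rw [integral_sub (integrableOn_phi_affine _ _) (hint.const_mul _), integral_const_mul,
    integral_exp_neg_Ioi_zero] at h2
  linarith

/-! ### the level sets of `wt` -/

theorem xexp_hasDerivAt (u : ℝ) :
    HasDerivAt (fun u : ℝ => u * Real.exp (-u)) ((1 - u) * Real.exp (-u)) u := by
  have h1 : HasDerivAt (fun u : ℝ => Real.exp (-u)) (Real.exp (-u) * -1) u :=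
    (hasDerivAt_neg u).exp
  have h2 := (hasDerivAt_id' u).mul h1
  have h3 : 1 * Real.exp (-u) + u * (Real.exp (-u) * -1) = (1 - u) * Real.exp (-u) := by ring
  rw [h3] at h2
  exact h2

theorem xexp_mono {u v : ℝ} (huv : u ≤ v) (hv : v ≤ 1) :
    u * Real.exp (-u) ≤ v * Real.exp (-v) := by
  have : MonotoneOn (fun u : ℝ => u * Real.exp (-u)) (Iic 1) := by
    apply monotoneOn_of_deriv_nonneg (convex_Iic 1)
    · fun_prop
    · exact fun x _ => (xexp_hasDerivAt x).differentiableAt.differentiableWithinAt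
    · intro x hx
      rw [interior_Iic] at hx
      rw [(xexp_hasDerivAt x).deriv]
      exact mul_nonneg (by linarith [hx.out]) (Real.exp_pos _).le
  exact this (huv.trans hv) hv huv

theorem xexp_anti {u v : ℝ} (hu : 1 ≤ u) (huv : u ≤ v) :
    v * Real.exp (-v) ≤ u * Real.exp (-u) := by
  have : AntitoneOn (fun u : ℝ => u * Real.exp (-u)) (Ici 1) := by
    apply antitoneOn_of_deriv_nonpos (convex_Ici 1)
    · fun_prop
    · exact fun x _ => (xexp_hasDerivAt x).differentiableAt.differentiableWithinAt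
    · intro x hx
      rw [interior_Ici] at hx
      rw [(xexp_hasDerivAt x).deriv]
      exact mul_nonpos_of_nonpos_of_nonneg (by linarith [hx.out]) (Real.exp_pos _).le
  exact this hu (hu.trans huv) huv

theorem wt_eq_of_pos {x : ℝ} (hx : 0 < 4 / 3 + x) :
    wt x = (4 / 3 + x) * Real.exp (-(4 / 3 + x)) := by
  unfold wt; rw [if_neg (not_le.mpr hx)]

theorem wt_eq_zero {x : ℝ} (hx : 4 / 3 + x ≤ 0) : wt x = 0 := by
  unfold wt; rw [if_pos hx]

/-- left endpoint (in the variable `u = 4/3 + x`) of the level set of width `τ`. -/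
noncomputable def u1 (τ : ℝ) : ℝ := τ / (Real.exp τ - 1)

theorem exp_sub_one_pos {τ : ℝ} (hτ : 0 < τ) : 0 < Real.exp τ - 1 := by
  have := Real.add_one_le_exp τ; linarith

theorem u1_pos {τ : ℝ} (hτ : 0 < τ) : 0 < u1 τ := div_pos hτ (exp_sub_one_pos hτ)

theorem u1_le_one {τ : ℝ} (hτ : 0 < τ) : u1 τ ≤ 1 := by
  unfold u1
  rw [div_le_one (exp_sub_one_pos hτ)]
  have := Real.add_one_le_exp τ; linarith

theorem u1_ge {τ : ℝ} (hτ : 0 < τ) : 1 - τ ≤ u1 τ := by
  unfold u1
  rw [le_div_iff₀ (exp_sub_one_pos hτ)]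
  have h1 := Real.add_one_le_exp (-τ)
  have h2 : Real.exp τ * Real.exp (-τ) = 1 := by rw [← Real.exp_add]; simp
  have h3 := Real.exp_pos τ
  nlinarith

theorem u1_le {τ : ℝ} (hτ : 0 < τ) : u1 τ ≤ 2 / τ := by
  unfold u1
  rw [div_le_div_iff₀ (exp_sub_one_pos hτ) hτ]
  have := Real.quadratic_le_exp_of_nonneg hτ.le
  nlinarith

theorem u1_level {τ : ℝ} (hτ : 0 < τ) :
    (u1 τ + τ) * Real.exp (-(u1 τ + τ)) = u1 τ * Real.exp (-(u1 τ)) := by
  have h0 := exp_sub_one_pos hτ
  have h1 : (u1 τ + τ) * Real.exp (-τ) = u1 τ := by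
    unfold u1
    rw [Real.exp_neg]
    have := Real.exp_pos τ
    field_simp
    ring
  rw [neg_add, Real.exp_add]
  calc (u1 τ + τ) * (Real.exp (-u1 τ) * Real.exp (-τ))
      = ((u1 τ + τ) * Real.exp (-τ)) * Real.exp (-u1 τ) := by ring
    _ = u1 τ * Real.exp (-(u1 τ)) := by rw [h1]

theorem u1_continuousOn : ContinuousOn u1 (Ioi 0) := by
  unfold u1
  apply ContinuousOn.div continuousOn_id (by fun_prop)
  intro τ hτ
  exact (exp_sub_one_pos hτ).ne'

theorem level_in {τ : ℝ} (hτ : 0 < τ) {s : ℝ}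
    (hs : s ∈ Icc (u1 τ - 4 / 3) (u1 τ - 4 / 3 + τ)) :
    u1 τ * Real.exp (-(u1 τ)) ≤ wt s := by
  have hu := u1_pos hτ
  have hpos : 0 < 4 / 3 + s := by linarith [hs.1]
  rw [wt_eq_of_pos hpos]
  by_cases h1 : 4 / 3 + s ≤ 1
  · exact xexp_mono (by linarith [hs.1]) h1
  · rw [← u1_level hτ]
    exact xexp_anti (by linarith) (by linarith [hs.2])

theorem level_out {τ : ℝ} (hτ : 0 < τ) {s : ℝ}
    (hs : s ∉ Icc (u1 τ - 4 / 3) (u1 τ - 4 / 3 + τ)) :
    wt s ≤ u1 τ * Real.exp (-(u1 τ)) := by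
  have hu := u1_pos hτ
  have hs' : s < u1 τ - 4 / 3 ∨ u1 τ - 4 / 3 + τ < s := by
    by_contra hcon
    push Not at hcon
    exact hs ⟨hcon.1, hcon.2⟩
  rcases hs' with h | h
  · by_cases hpos : 0 < 4 / 3 + s
    · rw [wt_eq_of_pos hpos]
      exact xexp_mono (by linarith) (u1_le_one hτ)
    · rw [wt_eq_zero (not_lt.mp hpos)]
      exact mul_nonneg hu.le (Real.exp_pos _).le
  · have hpos : 0 < 4 / 3 + s := by linarith
    rw [wt_eq_of_pos hpos, ← u1_level hτ]
    have := u1_ge hτ
    exact xexp_anti (by linarith) (by linarith)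

/-! ### the one-parameter family of chords -/

/-- slope of the chord of `log G` over the level set of width `τ`. -/
noncomputable def chordLam (G : ℝ → ℝ) (τ : ℝ) : ℝ :=
  (Real.log (G (u1 τ - 4 / 3)) - Real.log (G (u1 τ - 4 / 3 + τ))) / τ

/-- mean of the chord exponential. -/
noncomputable def chordMu (G : ℝ → ℝ) (τ : ℝ) : ℝ :=
  u1 τ - 4 / 3 + Real.log (G (u1 τ - 4 / 3)) / chordLam G τ + 1 / chordLam G τ

theorem IsLCSurv.chordLam_ge {G : ℝ → ℝ} (hG : IsLCSurv G) {τ : ℝ} (hτ : 0 < τ) :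
    Real.log (G (-(4 / 3) - 1)) - Real.log (G (-(4 / 3))) ≤ chordLam G τ := by
  have hu := u1_pos hτ
  have h1 := hG.three_slope (x := -(4 / 3) - 1) (y := -(4 / 3)) (z := u1 τ - 4 / 3)
    (by linarith) (by linarith)
  have h2 := hG.three_slope (x := -(4 / 3)) (y := u1 τ - 4 / 3) (z := u1 τ - 4 / 3 + τ)
    (by linarith) (by linarith)
  unfold chordLam
  rw [le_div_iff₀ hτ]
  set l0 := Real.log (G (-(4 / 3) - 1))
  set l1 := Real.log (G (-(4 / 3)))
  set lp := Real.log (G (u1 τ - 4 / 3))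
  set lq := Real.log (G (u1 τ - 4 / 3 + τ))
  have h1' : lp - l1 ≤ (l1 - l0) * u1 τ := by
    have e1 : (-(4 / 3 : ℝ) - (-(4 / 3) - 1)) = 1 := by ring
    have e2 : (u1 τ - 4 / 3 - -(4 / 3 : ℝ)) = u1 τ := by ring
    rw [e1, e2] at h1
    linarith
  have h2' : (lq - lp) * u1 τ ≤ (lp - l1) * τ := by
    have e1 : (u1 τ - 4 / 3 - -(4 / 3 : ℝ)) = u1 τ := by ring
    have e2 : (u1 τ - 4 / 3 + τ - (u1 τ - 4 / 3)) = τ := by ring
    rw [e1, e2] at h2
    exact h2
  have h3 : (lq - lp) * u1 τ ≤ ((l1 - l0) * τ) * u1 τ := by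
    have := mul_le_mul_of_nonneg_right h1' hτ.le
    linarith
  have h4 := le_of_mul_le_mul_right h3 hu
  linarith

theorem IsLCSurv.chordMu_continuousOn {G : ℝ → ℝ} (hG : IsLCSurv G)
    (hpos : ∀ τ, 0 < τ → 0 < chordLam G τ) : ContinuousOn (chordMu G) (Ioi 0) := by
  have hP : ContinuousOn (fun τ => u1 τ - 4 / 3) (Ioi 0) := u1_continuousOn.sub continuousOn_const
  have hQ : ContinuousOn (fun τ => u1 τ - 4 / 3 + τ) (Ioi 0) := hP.add continuousOn_id
  have hlP : ContinuousOn (fun τ => Real.log (G (u1 τ - 4 / 3))) (Ioi 0) :=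
    hG.log_cont.comp_continuousOn hP
  have hlQ : ContinuousOn (fun τ => Real.log (G (u1 τ - 4 / 3 + τ))) (Ioi 0) :=
    hG.log_cont.comp_continuousOn hQ
  have hL : ContinuousOn (chordLam G) (Ioi 0) :=
    (hlP.sub hlQ).div continuousOn_id (fun τ hτ => (ne_of_gt hτ))
  have hne : ∀ τ ∈ Ioi (0 : ℝ), chordLam G τ ≠ 0 := fun τ hτ => (hpos τ hτ).ne'
  exact (hP.add (hlP.div hL hne)).add (continuousOn_const.div hL hne)

/-- the two case estimates for one chord. -/
theorem IsLCSurv.chord_cases {G : ℝ → ℝ} (hG : IsLCSurv G)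
    (hint1 : IntegrableOn G (Ioi 0)) (hint2 : IntegrableOn (fun s => 1 - G s) (Iic 0))
    (hmean : (∫ s in Ioi 0, G s) - ∫ s in Iic 0, (1 - G s) = 0)
    {τ : ℝ} (hτ : 0 < τ) (hlam : 0 < chordLam G τ) :
    (0 ≤ chordMu G τ →
      mstar - u1 τ * Real.exp (-(u1 τ)) * chordMu G τ ≤ ∫ s, wt s * G s) ∧
    (chordMu G τ ≤ 0 →
      mstar + (Real.exp (-1) - u1 τ * Real.exp (-(u1 τ))) * chordMu G τ ≤ ∫ s, wt s * G s) := by
  have hkey := hG.chord_ineq hint1 hint2 hmean (p := u1 τ - 4 / 3) (q := u1 τ - 4 / 3 + τ)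
    (c := u1 τ * Real.exp (-(u1 τ))) (by linarith) (fun s hs => level_in hτ hs)
    (fun s hs => level_out hτ hs) hlam (by
      unfold chordLam
      have : u1 τ - 4 / 3 + τ - (u1 τ - 4 / 3) = τ := by ring
      rw [this, div_mul_cancel₀ _ hτ.ne'])
  have hb : 0 < 1 / chordLam G τ := by positivity
  have hrew : ∀ u : ℝ, u1 τ - 4 / 3 + Real.log (G (u1 τ - 4 / 3)) / chordLam G τ
      + 1 / chordLam G τ * u = chordMu G τ - 1 / chordLam G τ + 1 / chordLam G τ * u := by
    intro u; unfold chordMu; ring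
  simp only [hrew] at hkey
  have hmu : u1 τ - 4 / 3 + Real.log (G (u1 τ - 4 / 3)) / chordLam G τ + 1 / chordLam G τ
      = chordMu G τ := rfl
  rw [hmu] at hkey
  constructor
  · intro h
    have := Phi_ge_of_nonneg hb h
    linarith
  · intro h
    have := Phi_ge_of_nonpos hb h
    linarith

/-- A mean-zero law with positive log-concave survival function `G < 1` has `E phi ≥ mstar`. -/
theorem chord_bound (G : ℝ → ℝ) (hG : IsLCSurv G) (hlt : ∀ s, G s < 1)
    (hint1 : IntegrableOn G (Ioi 0)) (hint2 : IntegrableOn (fun s => 1 - G s) (Iic 0))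
    (hmean : (∫ s in Ioi 0, G s) - ∫ s in Iic 0, (1 - G s) = 0) :
    mstar ≤ ∫ s, wt s * G s := by
  -- Step 1: the slope to the left of `-4/3` is strictly negative
  have hlam0 : 0 < Real.log (G (-(4 / 3) - 1)) - Real.log (G (-(4 / 3))) := by
    by_contra hcon
    push Not at hcon
    have heq : Real.log (G (-(4 / 3) - 1)) = Real.log (G (-(4 / 3))) :=
      le_antisymm (by linarith) (hG.log_anti (by linarith))
    have hconst : ∀ x, x < -(4 / 3) - 1 → G x = G (-(4 / 3)) := by
      intro x hx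
      have h3 := hG.three_slope hx (show -(4 / 3) - 1 < -(4 / 3 : ℝ) by linarith)
      have h4 : Real.log (G x) ≤ Real.log (G (-(4 / 3) - 1)) := by
        rw [heq, sub_self, zero_mul] at h3
        nlinarith
      have h5 : Real.log (G (-(4 / 3) - 1)) ≤ Real.log (G x) := hG.log_anti hx.le
      have h6 : Real.log (G x) = Real.log (G (-(4 / 3))) := by linarith
      have := congrArg Real.exp h6
      rwa [Real.exp_log (hG.pos _), Real.exp_log (hG.pos _)] at this
    have hI : IntegrableOn (fun s => 1 - G s) (Iio (-(4 / 3) - 1)) :=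
      hint2.mono_set (fun s hs => by
        simp only [mem_Iio] at hs
        simp only [mem_Iic]
        linarith)
    have hI' : IntegrableOn (fun _ : ℝ => 1 - G (-(4 / 3))) (Iio (-(4 / 3) - 1)) :=
      hI.congr_fun (fun s hs => by simp only [hconst s hs]) measurableSet_Iio
    rw [integrableOn_const_iff] at hI'
    rcases hI' with h | h
    · have := hlt (-(4 / 3))
      simp only [enorm_eq_zero] at h
      linarith
    · simp at h
  set l0 := Real.log (G (-(4 / 3) - 1)) - Real.log (G (-(4 / 3))) with hl0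
  have hLge : ∀ τ, 0 < τ → l0 ≤ chordLam G τ := fun τ hτ => hG.chordLam_ge hτ
  have hLpos : ∀ τ, 0 < τ → 0 < chordLam G τ := fun τ hτ => lt_of_lt_of_le hlam0 (hLge τ hτ)
  -- Step 2: uniform bound on the mean
  set l2 := Real.log (G (-(1 / 3))) with hl2
  have hl2n : l2 ≤ 0 := hG.log_nonpos _
  set M := 4 / 3 + (1 - l2) / l0 with hM
  have hMpos : 0 < M := by
    have : 0 ≤ (1 - l2) / l0 := div_nonneg (by linarith) hlam0.le
    linarith
  have hMu : ∀ τ, 0 < τ → -M ≤ chordMu G τ ∧ chordMu G τ ≤ M := by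
    intro τ hτ
    have hu0 := u1_pos hτ
    have hu1 := u1_le_one hτ
    have hL := hLge τ hτ
    have hLp := hLpos τ hτ
    have hlp0 : Real.log (G (u1 τ - 4 / 3)) ≤ 0 := hG.log_nonpos _
    have hlp2 : l2 ≤ Real.log (G (u1 τ - 4 / 3)) := hG.log_anti (by linarith)
    have hB0 : 0 < 1 / chordLam G τ := by positivity
    have hB1 : 1 / chordLam G τ ≤ 1 / l0 := one_div_le_one_div_of_le hlam0 hL
    have hmu : chordMu G τ = u1 τ - 4 / 3 + Real.log (G (u1 τ - 4 / 3)) * (1 / chordLam G τ)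
        + 1 / chordLam G τ := by unfold chordMu; ring
    have hMe : M = 4 / 3 + (1 - l2) * (1 / l0) := by rw [hM]; ring
    have hinv0 : 0 < 1 / l0 := by positivity
    rw [hmu, hMe]
    constructor
    · nlinarith [mul_nonneg (sub_nonneg.mpr hlp2) hB0.le,
        mul_nonneg (neg_nonneg.mpr hl2n) (sub_nonneg.mpr hB1)]
    · nlinarith [mul_nonneg (neg_nonneg.mpr hlp0) hB0.le,
        mul_nonneg (neg_nonneg.mpr hl2n) hinv0.le]
  -- Step 3: contradiction via the intermediate value theorem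
  by_contra hcon
  push Not at hcon
  set δ := mstar - ∫ s, wt s * G s with hδ
  have hδpos : 0 < δ := by linarith
  set τ₁ := δ / (2 * M) with hτ₁
  have hτ₁pos : 0 < τ₁ := by positivity
  set τ₂ := τ₁ + 4 * M / δ with hτ₂
  have hτ₂pos : 0 < τ₂ := by positivity
  have h12 : τ₁ ≤ τ₂ := by
    have : 0 ≤ 4 * M / δ := by positivity
    linarith
  have hcase := fun τ (hτ : 0 < τ) => hG.chord_cases hint1 hint2 hmean hτ (hLpos τ hτ)
  -- at τ₁ the mean is positive
  have hpos1 : 0 < chordMu G τ₁ := by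
    by_contra hneg
    push Not at hneg
    have h := (hcase τ₁ hτ₁pos).2 hneg
    have hb := (hMu τ₁ hτ₁pos).1
    have hu0 := u1_pos hτ₁pos
    have hu1 := u1_le_one hτ₁pos
    have hug := u1_ge hτ₁pos
    have hc1 : u1 τ₁ * Real.exp (-(u1 τ₁)) ≤ Real.exp (-1) := by
      have := xexp_mono hu1 le_rfl
      simpa using this
    have he1 : Real.exp (-1) ≤ 1 := by
      rw [Real.exp_le_one_iff]; norm_num
    have he0 : 0 < Real.exp (-1) := Real.exp_pos _
    have hc2 : Real.exp (-1) - u1 τ₁ * Real.exp (-(u1 τ₁)) ≤ τ₁ := by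
      have h5 : Real.exp (-1) ≤ Real.exp (-(u1 τ₁)) := Real.exp_le_exp.mpr (by linarith)
      nlinarith
    have hτM : τ₁ * M = δ / 2 := by
      rw [hτ₁]; field_simp
    nlinarith [mul_nonneg (sub_nonneg.mpr hc1) (by linarith : (0:ℝ) ≤ chordMu G τ₁ + M),
      mul_nonneg (sub_nonneg.mpr hc2) hMpos.le]
  -- at τ₂ the mean is negative
  have hneg2 : chordMu G τ₂ < 0 := by
    by_contra hnn
    push Not at hnn
    have h := (hcase τ₂ hτ₂pos).1 hnn
    have hb := (hMu τ₂ hτ₂pos).2
    have hu0 := u1_pos hτ₂pos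
    have hc1 : u1 τ₂ * Real.exp (-(u1 τ₂)) ≤ u1 τ₂ := by
      have : Real.exp (-(u1 τ₂)) ≤ 1 := by rw [Real.exp_le_one_iff]; linarith
      nlinarith
    have hc0 : 0 ≤ u1 τ₂ * Real.exp (-(u1 τ₂)) := mul_nonneg hu0.le (Real.exp_pos _).le
    have hc2 : u1 τ₂ ≤ δ / (2 * M) := by
      refine (u1_le hτ₂pos).trans ?_
      rw [div_le_div_iff₀ hτ₂pos (by positivity)]
      have : τ₂ * δ ≥ 4 * M := by
        rw [hτ₂]
        have : 4 * M / δ * δ = 4 * M := by field_simp
        nlinarith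
      nlinarith
    have hcM : u1 τ₂ * M ≤ δ / 2 := by
      have := mul_le_mul_of_nonneg_right hc2 hMpos.le
      have e : δ / (2 * M) * M = δ / 2 := by field_simp
      linarith
    nlinarith [mul_nonneg hc0 (sub_nonneg.mpr hb), mul_nonneg (sub_nonneg.mpr hc1) hMpos.le]
  -- intermediate value
  have hcont : ContinuousOn (chordMu G) (Icc τ₁ τ₂) :=
    (hG.chordMu_continuousOn hLpos).mono (fun τ hτ => lt_of_lt_of_le hτ₁pos hτ.1)
  obtain ⟨τ, hτmem, hτ0⟩ := intermediate_value_Icc' h12 hcont ⟨hneg2.le, hpos1.le⟩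
  have hτpos : 0 < τ := lt_of_lt_of_le hτ₁pos hτmem.1
  have h := (hcase τ hτpos).1 hτ0.ge
  rw [hτ0, mul_zero, sub_zero] at h
  linarith

end Crest.Agent.S0423Lib
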