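/-
S0423 library, module K (the class `IsLCSurv` is closed under exponential averaging).
Owner: helper6.

Proof of `IsLCSurv.expAvg` (`c ≠ 0`, `H = expAvg c G`):
* change of variables: `H s = (1/c) e^{-s/c} K s` with `K s = ∫_{Iic s} e^{t/c} G t` (`c > 0`);
  FTC gives `HasDerivAt H ((G s - H s)/c) s`; the case `c < 0` follows by reflection.
* for `s ≤ s'`, `u ≥ 0`: four point inequality for the concave `log ∘ G`, integrated:
  `H s * G s' ≤ H s' * G s` (`c > 0`) resp. the reverse (`c < 0`).
* hence `deriv (log ∘ H) = (G/H - 1)/c` is antitone; `AntitoneOn.concaveOn_of_deriv`.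
-/
import Crest.Agent.S0423Lib.Defs

set_option autoImplicit false

namespace Crest.Agent.S0423Lib

open MeasureTheory Set

/-! ### private helpers (module Closure) -/

/-- the integrand of `expAvg` is integrable for a continuous `G` with values in `[0,1]`. -/
lemma closure_integrable {G : ℝ → ℝ} (hc : Continuous G) (h0 : ∀ s, 0 ≤ G s) (h1 : ∀ s, G s ≤ 1)
    (c s : ℝ) : IntegrableOn (fun u => Real.exp (-u) * G (s - c * u)) (Ioi 0) := by
  refine Integrable.mono' (integrableOn_exp_neg_Ioi 0) ?_ ?_
  · exact (by fun_prop : Continuous (fun u => Real.exp (-u) * G (s - c * u))).aestronglyMeasurable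
  · refine Filter.Eventually.of_forall (fun u => ?_)
    rw [Real.norm_eq_abs, abs_mul, abs_of_pos (Real.exp_pos _), abs_of_nonneg (h0 _)]
    exact mul_le_of_le_one_right (Real.exp_pos _).le (h1 _)

/-- a continuous nonnegative integrand that is positive somewhere on `(0, ∞)` has a positive
integral over `(0, ∞)`. -/
lemma closure_integral_pos {f : ℝ → ℝ} (hc : Continuous f) (h0 : ∀ u, 0 ≤ f u)
    (hi : IntegrableOn f (Ioi 0)) {u₀ : ℝ} (hu₀ : 0 < u₀) (hf : 0 < f u₀) :
    0 < ∫ u in Ioi 0, f u := by
  rw [setIntegral_pos_iff_support_of_nonneg_ae (Filter.Eventually.of_forall h0) hi]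
  have hopen : IsOpen (Function.support f ∩ Ioi 0) :=
    (hc.isOpen_support).inter isOpen_Ioi
  exact hopen.measure_pos volume ⟨u₀, hf.ne', hu₀⟩

lemma closure_one_sub {G : ℝ → ℝ} (hG : IsLCSurv G) (c s : ℝ) :
    1 - expAvg c G s = ∫ u in Ioi 0, Real.exp (-u) * (1 - G (s - c * u)) := by
  unfold expAvg
  have h1 := closure_integrable hG.cont (fun s => (hG.pos s).le) hG.le_one c s
  have : ∫ u in Ioi (0:ℝ), Real.exp (-u) * (1 - G (s - c * u))
      = (∫ u in Ioi (0:ℝ), Real.exp (-u)) - ∫ u in Ioi (0:ℝ), Real.exp (-u) * G (s - c * u) := by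
    rw [← integral_sub (integrableOn_exp_neg_Ioi 0) h1]
    congr 1; funext u; ring
  rw [this, integral_exp_neg_Ioi_zero]

lemma closure_lt_one_of {G : ℝ → ℝ} (hG : IsLCSurv G) (c s : ℝ) {u₀ : ℝ} (hu₀ : 0 < u₀)
    (h : G (s - c * u₀) < 1) : expAvg c G s < 1 := by
  have h1 := closure_one_sub hG c s
  have hpos : 0 < ∫ u in Ioi 0, Real.exp (-u) * (1 - G (s - c * u)) := by
    apply closure_integral_pos (u₀ := u₀) _ _ _ hu₀ _
    · have := hG.cont; fun_prop
    · intro u; exact mul_nonneg (Real.exp_pos _).le (sub_nonneg.2 (hG.le_one _))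
    · have := (integrableOn_exp_neg_Ioi 0).sub
        (closure_integrable hG.cont (fun s => (hG.pos s).le) hG.le_one c s)
      refine this.congr_fun (fun u _ => ?_) measurableSet_Ioi
      simp only [Pi.sub_apply]; ring
    · exact mul_pos (Real.exp_pos _) (sub_pos.2 h)
  linarith

/-- four point inequality for a concave function. -/
lemma closure_four_point {ℓ : ℝ → ℝ} (h : ConcaveOn ℝ univ ℓ) {x y t : ℝ} (hxy : x ≤ y)
    (ht : 0 ≤ t) : ℓ x + ℓ (y + t) ≤ ℓ (x + t) + ℓ y := by
  rcases eq_or_lt_of_le (show x ≤ y + t by linarith) with h0 | h0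
  · have ht0 : t = 0 := by linarith
    have hxy' : x = y := by linarith
    subst ht0; subst hxy'; simp
  · have hdpos : 0 < y + t - x := by linarith
    have hne : y + t - x ≠ 0 := hdpos.ne'
    have ha : 0 ≤ (y - x) / (y + t - x) := div_nonneg (by linarith) hdpos.le
    have hb : 0 ≤ t / (y + t - x) := div_nonneg ht hdpos.le
    have hsum : (y - x) / (y + t - x) + t / (y + t - x) = 1 := by field_simp; ring
    have h1 := h.2 (mem_univ x) (mem_univ (y + t)) ha hb hsum
    have h2 := h.2 (mem_univ x) (mem_univ (y + t)) hb ha (by rw [add_comm]; exact hsum)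
    have e1 : ((y - x) / (y + t - x)) • x + (t / (y + t - x)) • (y + t) = x + t := by
      simp only [smul_eq_mul]; field_simp; ring
    have e2 : (t / (y + t - x)) • x + ((y - x) / (y + t - x)) • (y + t) = y := by
      simp only [smul_eq_mul]; field_simp; ring
    rw [e1] at h1; rw [e2] at h2
    simp only [smul_eq_mul] at h1 h2
    have key : (y - x) / (y + t - x) * ℓ x + t / (y + t - x) * ℓ (y + t)
        + (t / (y + t - x) * ℓ x + (y - x) / (y + t - x) * ℓ (y + t)) = ℓ x + ℓ (y + t) := by
      have : (y - x) / (y + t - x) * ℓ x + t / (y + t - x) * ℓ (y + t)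
        + (t / (y + t - x) * ℓ x + (y - x) / (y + t - x) * ℓ (y + t))
        = ((y - x) / (y + t - x) + t / (y + t - x)) * (ℓ x + ℓ (y + t)) := by ring
      rw [this, hsum, one_mul]
    linarith

lemma closure_four_point_mul {G : ℝ → ℝ} (hG : IsLCSurv G) {x y t : ℝ} (hxy : x ≤ y)
    (ht : 0 ≤ t) : G x * G (y + t) ≤ G (x + t) * G y := by
  have h := closure_four_point hG.conc hxy ht
  have e : ∀ a b, G a * G b = Real.exp (Real.log (G a) + Real.log (G b)) := by
    intro a b; rw [Real.exp_add, Real.exp_log (hG.pos a), Real.exp_log (hG.pos b)]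
  rw [e, e, Real.exp_le_exp]; exact h

/-- the integrated four point inequality. -/
lemma closure_cross {G : ℝ → ℝ} (hG : IsLCSurv G) {c : ℝ} {s s' : ℝ} (hs : s ≤ s') :
    (0 < c → expAvg c G s * G s' ≤ expAvg c G s' * G s) ∧
    (c < 0 → expAvg c G s' * G s ≤ expAvg c G s * G s') := by
  have hi := fun s => closure_integrable hG.cont (fun s => (hG.pos s).le) hG.le_one c s
  constructor
  · intro hc
    unfold expAvg
    rw [← integral_mul_const, ← integral_mul_const]
    apply setIntegral_mono_on ((hi s).mul_const _) ((hi s').mul_const _) measurableSet_Ioi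
    intro u hu
    have hu' : 0 ≤ c * u := mul_nonneg hc.le (le_of_lt hu)
    have := closure_four_point_mul hG (x := s - c * u) (y := s' - c * u) (t := c * u)
      (by linarith) hu'
    rw [sub_add_cancel, sub_add_cancel] at this
    have he := (Real.exp_pos (-u)).le
    calc Real.exp (-u) * G (s - c * u) * G s' = Real.exp (-u) * (G (s - c * u) * G s') := by ring
      _ ≤ Real.exp (-u) * (G s * G (s' - c * u)) := mul_le_mul_of_nonneg_left this he
      _ = Real.exp (-u) * G (s' - c * u) * G s := by ring
  · intro hc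
    unfold expAvg
    rw [← integral_mul_const, ← integral_mul_const]
    apply setIntegral_mono_on ((hi s').mul_const _) ((hi s).mul_const _) measurableSet_Ioi
    intro u hu
    have hu' : 0 ≤ -(c * u) := by
      have := mul_neg_of_neg_of_pos hc hu; linarith
    have := closure_four_point_mul hG (x := s) (y := s') (t := -(c * u)) hs hu'
    have he := (Real.exp_pos (-u)).le
    have e1 : s' + -(c * u) = s' - c * u := by ring
    have e2 : s + -(c * u) = s - c * u := by ring
    rw [e1, e2] at this
    calc Real.exp (-u) * G (s' - c * u) * G s = Real.exp (-u) * (G s * G (s' - c * u)) := by ring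
      _ ≤ Real.exp (-u) * (G (s - c * u) * G s') := mul_le_mul_of_nonneg_left this he
      _ = Real.exp (-u) * G (s - c * u) * G s' := by ring

/-- change of variables `t = s - c u` (`c > 0`). -/
lemma closure_expAvg_eq {G : ℝ → ℝ} {c : ℝ} (hc : 0 < c) (s : ℝ) :
    expAvg c G s = c⁻¹ * (Real.exp (-s / c) * ∫ t in Iic s, Real.exp (t / c) * G t) := by
  unfold expAvg
  have h1 : ∫ u in Ioi (0:ℝ), Real.exp (-u) * G (s - c * u)
      = ∫ u, (Iio s).indicator (fun t => Real.exp (-(s - t) / c) * G t) (s - c * u) := by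
    rw [← integral_indicator measurableSet_Ioi]
    congr 1
    funext u
    by_cases hu : 0 < u
    · have hmem : s - c * u ∈ Iio s := by
        simp only [mem_Iio]; nlinarith [mul_pos hc hu]
      rw [indicator_of_mem (mem_Ioi.2 hu), indicator_of_mem hmem]
      congr 2
      field_simp
      ring
    · have hmem : s - c * u ∉ Iio s := by
        simp only [mem_Iio, not_lt]
        nlinarith [mul_nonneg hc.le (sub_nonneg.2 (not_lt.1 hu))]
      rw [indicator_of_notMem (by simpa using hu), indicator_of_notMem hmem]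
  have h2 : ∫ u, (Iio s).indicator (fun t => Real.exp (-(s - t) / c) * G t) (s - c * u)
      = c⁻¹ * ∫ y, (Iio s).indicator (fun t => Real.exp (-(s - t) / c) * G t) y := by
    have := Measure.integral_comp_mul_left
      (fun y => (Iio s).indicator (fun t => Real.exp (-(s - t) / c) * G t) (s - y)) c
    rw [this, integral_sub_left_eq_self
      ((Iio s).indicator (fun t => Real.exp (-(s - t) / c) * G t)) volume s,
      abs_of_pos (inv_pos.2 hc), smul_eq_mul]
  have h3 : ∫ y, (Iio s).indicator (fun t => Real.exp (-(s - t) / c) * G t) y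
      = Real.exp (-s / c) * ∫ t in Iic s, Real.exp (t / c) * G t := by
    rw [integral_indicator measurableSet_Iio, integral_Iic_eq_integral_Iio, ← integral_const_mul]
    congr 1
    funext t
    rw [← mul_assoc, ← Real.exp_add]
    congr 2
    field_simp
    ring
  rw [h1, h2, h3]

lemma closure_hasDerivAt_K {G : ℝ → ℝ} (hG : Continuous G) (h0 : ∀ s, 0 ≤ G s)
    (h1 : ∀ s, G s ≤ 1) {c : ℝ} (hc : 0 < c) (s : ℝ) :
    HasDerivAt (fun x => ∫ t in Iic x, Real.exp (t / c) * G t) (Real.exp (s / c) * G s) s := by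
  have hg : Continuous (fun t => Real.exp (t / c) * G t) := by fun_prop
  have hint : ∀ b, IntegrableOn (fun t => Real.exp (t / c) * G t) (Iic b) := by
    intro b
    have hb : IntegrableOn (fun t : ℝ => Real.exp (c⁻¹ * t)) (Iic b) :=
      integrableOn_exp_mul_Iic (inv_pos.2 hc) b
    refine Integrable.mono' hb hg.aestronglyMeasurable (Filter.Eventually.of_forall fun t => ?_)
    rw [Real.norm_eq_abs, abs_mul, abs_of_pos (Real.exp_pos _), abs_of_nonneg (h0 _)]
    have e : Real.exp (c⁻¹ * t) = Real.exp (t / c) := by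
      congr 1; field_simp
    rw [e]
    exact mul_le_of_le_one_right (Real.exp_pos _).le (h1 t)
  have heq : (fun x => ∫ t in Iic x, Real.exp (t / c) * G t)
      = fun x => (∫ t in Iic s, Real.exp (t / c) * G t)
          + ∫ t in s..x, Real.exp (t / c) * G t := by
    funext x
    rw [← intervalIntegral.integral_Iic_sub_Iic (hint s) (hint x)]; ring
  rw [heq]
  exact ((hg.integral_hasStrictDerivAt s s).hasDerivAt).const_add _

lemma closure_hasDerivAt_pos {G : ℝ → ℝ} (hG : Continuous G) (h0 : ∀ s, 0 ≤ G s)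
    (h1 : ∀ s, G s ≤ 1) {c : ℝ} (hc : 0 < c) (s : ℝ) :
    HasDerivAt (expAvg c G) ((G s - expAvg c G s) / c) s := by
  have hK := closure_hasDerivAt_K hG h0 h1 hc s
  have hE : HasDerivAt (fun x : ℝ => Real.exp (-x / c)) (Real.exp (-s / c) * (-1 / c)) s := by
    have : HasDerivAt (fun x : ℝ => -x / c) (-1 / c) s := by
      simpa using ((hasDerivAt_id s).neg.div_const c)
    exact this.exp
  have hP := (hE.mul hK).const_mul c⁻¹
  have hfun : expAvg c G
      = fun x => c⁻¹ * (Real.exp (-x / c) * ∫ t in Iic x, Real.exp (t / c) * G t) := by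
    funext x; exact closure_expAvg_eq hc x
  have hval : (G s - expAvg c G s) / c
      = c⁻¹ * (Real.exp (-s / c) * (-1 / c) * (∫ t in Iic s, Real.exp (t / c) * G t)
          + Real.exp (-s / c) * (Real.exp (s / c) * G s)) := by
    rw [closure_expAvg_eq hc s]
    have : Real.exp (-s / c) * (Real.exp (s / c) * G s) = G s := by
      rw [← mul_assoc, ← Real.exp_add]
      have : -s / c + s / c = 0 := by ring
      rw [this, Real.exp_zero, one_mul]
    rw [this]
    field_simp
    ring
  rw [hval, hfun]
  exact hP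

lemma closure_hasDerivAt {G : ℝ → ℝ} (hG : Continuous G) (h0 : ∀ s, 0 ≤ G s)
    (h1 : ∀ s, G s ≤ 1) {c : ℝ} (hc : c ≠ 0) (s : ℝ) :
    HasDerivAt (expAvg c G) ((G s - expAvg c G s) / c) s := by
  rcases lt_or_gt_of_ne hc with hneg | hpos
  · have hrefl : ∀ x, expAvg c G x = expAvg (-c) (fun t => G (-t)) (-x) := by
      intro x; unfold expAvg
      congr 1; funext u; congr 2; ring
    have hd := closure_hasDerivAt_pos (G := fun t => G (-t)) (by fun_prop) (fun s => h0 _)
      (fun s => h1 _) (neg_pos.2 hneg) (-s)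
    have hcomp : HasDerivAt (fun x => expAvg (-c) (fun t => G (-t)) (-x))
        ((G (- -s) - expAvg (-c) (fun t => G (-t)) (-s)) / -c * -1) s :=
      HasDerivAt.comp s hd (hasDerivAt_neg' s)
    have hfun : expAvg c G = fun x => expAvg (-c) (fun t => G (-t)) (-x) := by
      funext x; exact hrefl x
    have hval : (G s - expAvg c G s) / c
        = (G (- -s) - expAvg (-c) (fun t => G (-t)) (-s)) / -c * -1 := by
      rw [hrefl s, neg_neg]
      field_simp
    rw [hval, hfun]
    exact hcomp
  · exact closure_hasDerivAt_pos hG h0 h1 hpos s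

/-! ### the Spec lemmas -/

/-- base case: survival function of `c X`, `c > 0`. -/
theorem expAvg_base (c : ℝ) (hc : 0 < c) (s : ℝ) :
    expAvg c (fun s => if s < 0 then (1 : ℝ) else 0) s = min 1 (Real.exp (-s / c)) := by
  unfold expAvg
  have h1 : ∀ u : ℝ, Real.exp (-u) * (if s - c * u < 0 then (1 : ℝ) else 0)
      = (Ioi (s / c)).indicator (fun u => Real.exp (-u)) u := by
    intro u
    by_cases h : s - c * u < 0
    · have : s / c < u := by rw [div_lt_iff₀ hc]; linarith
      rw [if_pos h, indicator_of_mem (mem_Ioi.2 this)]; ring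
    · have : ¬ s / c < u := by rw [div_lt_iff₀ hc]; intro h'; apply h; linarith
      rw [if_neg h, indicator_of_notMem (by simpa using this)]; ring
  simp_rw [h1]
  rw [setIntegral_indicator measurableSet_Ioi, Ioi_inter_Ioi, integral_exp_neg_Ioi]
  have e : -s / c = -(s / c) := by ring
  rcases le_total 0 (s / c) with h | h
  · rw [sup_eq_right.2 h, min_eq_right, e]
    rw [Real.exp_le_one_iff, e]; linarith
  · rw [sup_eq_left.2 h, neg_zero, Real.exp_zero, min_eq_left]
    rw [Real.one_le_exp_iff, e]; linarith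

theorem isLCSurv_base (c : ℝ) (hc : 0 < c) :
    IsLCSurv (fun s => min 1 (Real.exp (-s / c))) := by
  refine ⟨by fun_prop, fun s => lt_min one_pos (Real.exp_pos _), fun s => min_le_left _ _, ?_, ?_⟩
  · intro s t hst
    apply min_le_min le_rfl
    rw [Real.exp_le_exp]
    apply div_le_div_of_nonneg_right _ hc.le
    linarith
  · have key : (fun s : ℝ => Real.log (min 1 (Real.exp (-s / c))))
        = (fun _ : ℝ => (0 : ℝ)) ⊓ (fun s : ℝ => -s / c) := by
      funext s
      rw [Pi.inf_apply]
      rcases le_total 1 (Real.exp (-s / c)) with h | h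
      · rw [min_eq_left h, Real.log_one, inf_eq_left.2]
        exact (Real.one_le_exp_iff).1 h
      · rw [min_eq_right h, Real.log_exp, inf_eq_right.2]
        exact (Real.exp_le_one_iff).1 h
    rw [key]
    apply ConcaveOn.inf
    · exact concaveOn_const 0 convex_univ
    · refine ⟨convex_univ, fun x _ y _ a b _ _ _ => le_of_eq ?_⟩
      simp only [smul_eq_mul]
      ring

theorem base_exists_lt_one (c : ℝ) (hc : 0 < c) :
    ∃ s, min 1 (Real.exp (-s / c)) < 1 := by
  refine ⟨c, min_lt_iff.2 (Or.inr ?_)⟩
  rw [Real.exp_lt_one_iff, neg_div, div_self hc.ne']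
  norm_num

theorem expAvg_zero (G : ℝ → ℝ) : expAvg 0 G = G := by
  funext s
  unfold expAvg
  simp only [zero_mul, sub_zero]
  rw [integral_mul_const, integral_exp_neg_Ioi_zero, one_mul]

lemma closure_isLCSurv {G : ℝ → ℝ} (hG : IsLCSurv G) (c : ℝ) : IsLCSurv (expAvg c G) := by
  rcases eq_or_ne c 0 with rfl | hc
  · rw [expAvg_zero]; exact hG
  have h0 : ∀ s, 0 ≤ G s := fun s => (hG.pos s).le
  have hi := fun s => closure_integrable hG.cont h0 hG.le_one c s
  have hderiv := fun s => closure_hasDerivAt hG.cont h0 hG.le_one hc s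
  have hpos : ∀ s, 0 < expAvg c G s := by
    intro s
    have hcont : Continuous (fun u => Real.exp (-u) * G (s - c * u)) := by
      have := hG.cont; fun_prop
    exact closure_integral_pos hcont (fun u => mul_nonneg (Real.exp_pos _).le (h0 _)) (hi s)
      one_pos (mul_pos (Real.exp_pos _) (hG.pos _))
  have hcont : Continuous (expAvg c G) :=
    continuous_iff_continuousAt.2 fun s => (hderiv s).continuousAt
  refine ⟨hcont, hpos, ?_, ?_, ?_⟩
  · intro s
    have := closure_one_sub hG c s
    have hnn : 0 ≤ ∫ u in Ioi 0, Real.exp (-u) * (1 - G (s - c * u)) :=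
      setIntegral_nonneg measurableSet_Ioi
        (fun u _ => mul_nonneg (Real.exp_pos _).le (sub_nonneg.2 (hG.le_one _)))
    linarith
  · intro s s' hss
    unfold expAvg
    apply setIntegral_mono_on (hi s') (hi s) measurableSet_Ioi
    intro u _
    exact mul_le_mul_of_nonneg_left (hG.anti (by linarith)) (Real.exp_pos _).le
  · have hlog : ∀ s, HasDerivAt (fun y => Real.log (expAvg c G y))
        ((G s - expAvg c G s) / c / expAvg c G s) s :=
      fun s => (hderiv s).log (hpos s).ne'
    have hd : deriv (fun y => Real.log (expAvg c G y))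
        = fun s => (G s - expAvg c G s) / c / expAvg c G s :=
      funext fun s => (hlog s).deriv
    apply AntitoneOn.concaveOn_of_deriv convex_univ
    · exact (continuous_iff_continuousAt.2 fun s => (hlog s).continuousAt).continuousOn
    · exact fun s _ => (hlog s).differentiableAt.differentiableWithinAt
    · rw [hd]
      intro s _ s' _ hss
      have hcr := closure_cross hG (c := c) hss
      have hH := hpos s
      have hH' := hpos s'
      show (G s' - expAvg c G s') / c / expAvg c G s' ≤ (G s - expAvg c G s) / c / expAvg c G s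
      have hdiff : (G s - expAvg c G s) / c / expAvg c G s
          - (G s' - expAvg c G s') / c / expAvg c G s'
          = (G s * expAvg c G s' - G s' * expAvg c G s) / (c * (expAvg c G s * expAvg c G s')) := by
        field_simp
        ring
      have hnn : 0 ≤ (G s * expAvg c G s' - G s' * expAvg c G s)
          / (c * (expAvg c G s * expAvg c G s')) := by
        rcases lt_or_gt_of_ne hc with hneg | hpos'
        · have h := hcr.2 hneg
          apply div_nonneg_of_nonpos (by linarith)
          exact (mul_neg_of_neg_of_pos hneg (mul_pos hH hH')).le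
        · have h := hcr.1 hpos'
          apply div_nonneg (by linarith)
          exact (mul_pos hpos' (mul_pos hH hH')).le
      linarith

theorem IsLCSurv.expAvg {G : ℝ → ℝ} (hG : IsLCSurv G) (c : ℝ) : IsLCSurv (expAvg c G) :=
  closure_isLCSurv hG c

theorem expAvg_exists_lt_one {G : ℝ → ℝ} (hG : IsLCSurv G) (c : ℝ) (h : ∃ s, G s < 1) :
    ∃ s, expAvg c G s < 1 := by
  obtain ⟨s₀, hs₀⟩ := h
  refine ⟨s₀ + c, closure_lt_one_of hG c (s₀ + c) one_pos ?_⟩
  rw [mul_one, add_sub_cancel_right]
  exact hs₀

theorem expAvg_lt_one_of_neg {G : ℝ → ℝ} (hG : IsLCSurv G) {c : ℝ} (hc : c < 0)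
    (h : ∃ s, G s < 1) : ∀ s, expAvg c G s < 1 := by
  obtain ⟨s₀, hs₀⟩ := h
  intro s
  have hc' : 0 < -c := neg_pos.2 hc
  have hpos : 0 < |s₀ - s| / (-c) + 1 := by positivity
  refine closure_lt_one_of hG c s hpos (lt_of_le_of_lt (hG.anti ?_) hs₀)
  have e : -c * (|s₀ - s| / (-c) + 1) = |s₀ - s| + -c := by
    rw [mul_add, mul_one, mul_div_cancel₀ _ hc'.ne']
  nlinarith [le_abs_self (s₀ - s)]

theorem expAvg_lt_one {G : ℝ → ℝ} (hG : IsLCSurv G) (c : ℝ) (h : ∀ s, G s < 1) :
    ∀ s, expAvg c G s < 1 :=
  fun s => closure_lt_one_of hG c s one_pos (h _)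

end Crest.Agent.S0423Lib
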