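/-
S0423 library: assembly of the upper bound `mstar ≤ J N a phi` from the modules.  Owner: helper8.
-/
import Crest.Agent.S0423Lib.Calc
import Crest.Agent.S0423Lib.LayerCake
import Crest.Agent.S0423Lib.Orthant
import Crest.Agent.S0423Lib.Closure
import Crest.Agent.S0423Lib.Chord

set_option autoImplicit false

namespace Crest.Agent.S0423Lib

open MeasureTheory Set

/-- the survival function of `∑ a_i X_i` is in the class as soon as some coefficient is positive. -/
theorem surv_class : ∀ (N : ℕ) (a : Fin (N + 1) → ℝ), (∃ i, 0 < a i) →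
    IsLCSurv (surv (N + 1) a) ∧ (∃ s, surv (N + 1) a s < 1) ∧
      ((∃ i, a i < 0) → ∀ s, surv (N + 1) a s < 1) := by
  intro N
  induction N with
  | zero =>
    rintro a ⟨i, hi⟩
    have hi0 : i = 0 := Fin.ext (by have := i.isLt; simp only [Fin.val_zero]; omega)
    subst hi0
    have h1 : surv 1 a = fun s => min 1 (Real.exp (-s / a 0)) := by
      rw [surv_succ 0 a 0]
      funext s
      have h0 : surv 0 (fun j => a ((0 : Fin 1).succAbove j)) =
          fun s => if s < 0 then (1 : ℝ) else 0 := by
        funext s; exact surv_zero _ s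
      rw [h0, expAvg_base _ hi]
    refine ⟨h1 ▸ isLCSurv_base _ hi, ?_, ?_⟩
    · rw [h1]; exact base_exists_lt_one _ hi
    · rintro ⟨j, hj⟩
      have hj0 : j = 0 := Fin.ext (by have := j.isLt; simp only [Fin.val_zero]; omega)
      subst hj0
      linarith
  | succ N ih =>
    rintro a ⟨i₀, hi₀⟩
    obtain ⟨i, hi⟩ : ∃ i, i ≠ i₀ := exists_ne i₀
    obtain ⟨j₀, hj₀⟩ := Fin.exists_succAbove_eq (Ne.symm hi)
    have hrec := ih (fun j => a (i.succAbove j)) ⟨j₀, by simpa [hj₀] using hi₀⟩
    rw [surv_succ (N + 1) a i]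
    refine ⟨hrec.1.expAvg _, expAvg_exists_lt_one hrec.1 _ hrec.2.1, ?_⟩
    rintro ⟨k, hk⟩
    by_cases hki : k = i
    · subst hki; exact expAvg_lt_one_of_neg hrec.1 hk hrec.2.1
    · obtain ⟨k', hk'⟩ := Fin.exists_succAbove_eq hki
      exact expAvg_lt_one hrec.1 _ (hrec.2.2 ⟨k', by simpa [hk'] using hk⟩)

theorem phi_abs_le (t : ℝ) : |phi t| ≤ 1 := by
  rw [abs_of_nonneg (phi_nonneg t)]; exact phi_le_one t

/-- the upper bound in terms of `phi`. -/
theorem J_phi_ge (N : ℕ) (a : Fin N → ℝ) (ha : ∑ i, a i = 0) : mstar ≤ J N a phi := by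
  by_cases h0 : ∀ i, a i = 0
  · have h1 : J N a phi = phi 0 * J N a (fun _ => 1) := by
      unfold J
      rw [← integral_const_mul]
      congr 1
      funext x
      simp [h0]
    rw [h1, J_one, mul_one]
    exact mstar_le_phi_zero
  · push Not at h0
    obtain ⟨i, hi⟩ := h0
    -- both signs occur
    have hpos : ∃ i, 0 < a i := by
      by_contra hcon
      push Not at hcon
      have hle : ∑ j, a j ≤ 0 := Finset.sum_nonpos (fun j _ => hcon j)
      have : a i < 0 := lt_of_le_of_ne (hcon i) hi
      have hlt : ∑ j, a j < 0 :=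
        Finset.sum_neg' (fun j _ => hcon j) ⟨i, Finset.mem_univ i, this⟩
      linarith
    have hneg : ∃ i, a i < 0 := by
      by_contra hcon
      push Not at hcon
      have : 0 < a i := lt_of_le_of_ne (hcon i) (Ne.symm hi)
      have hlt : 0 < ∑ j, a j :=
        Finset.sum_pos' (fun j _ => hcon j) ⟨i, Finset.mem_univ i, this⟩
      linarith
    obtain ⟨N', rfl⟩ : ∃ N', N = N' + 1 := by
      cases N with
      | zero => exact i.elim0
      | succ n => exact ⟨n, rfl⟩
    obtain ⟨hG, -, hlt⟩ := surv_class N' a hpos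
    have hlt' := hlt hneg
    obtain ⟨hI1, hI2, hmean⟩ := layercake_mean (law (N' + 1) a) (integrable_id_law _ a)
    simp only [law_Ioi] at hI1 hI2 hmean
    rw [integral_id_law, ha] at hmean
    have hchord := chord_bound (surv (N' + 1) a) hG hlt' hI1 hI2 hmean.symm
    have hlc := layercake_Ioi (law (N' + 1) a) wt wt_continuous.measurable wt_nonneg wt_integrable
    simp only [law_Ioi, ← phi_eq_integral] at hlc
    rw [integral_law _ a phi phi_continuous.measurable 1 phi_abs_le] at hlc
    rw [hlc]
    exact hchord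

end Crest.Agent.S0423Lib
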