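/-
S0423 library, module C-aux: helper lemmas shared by CalcBasic and CalcV (owner: helper4).
Explicit integrals `∫_{(c,∞)} (α + β u) e^{-r u} du` via the fundamental theorem of calculus,
and the two closed forms of `phi`.
-/
import Crest.Agent.S0423Lib.Defs

set_option autoImplicit false

namespace Crest.Agent.S0423Lib

open MeasureTheory Set

theorem calcV_phi_of_le {x : ℝ} (hx : 4 / 3 + x ≤ 0) : phi x = 0 := by
  unfold phi Crest.AlgGeometry.truncExpWeight
  rw [if_pos hx]; ring

theorem calcV_phi_of_pos {x : ℝ} (hx : 0 < 4 / 3 + x) :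
    phi x = 1 - (1 + (4 / 3 + x)) * Real.exp (-(4 / 3 + x)) := by
  unfold phi Crest.AlgGeometry.truncExpWeight
  rw [if_neg (not_le.mpr hx)]

/-- `exp (-1/3) ≤ 18/25`. -/
theorem calcV_exp_neg_third_le : Real.exp (-(1 / 3)) ≤ 18 / 25 := by
  have h1 : (25 / 18 : ℝ) ≤ Real.exp (1 / 3) := by
    have := Real.quadratic_le_exp_of_nonneg (x := (1 / 3 : ℝ)) (by norm_num)
    norm_num at this ⊢
    linarith
  rw [Real.exp_neg]
  rw [inv_le_comm₀ (Real.exp_pos _) (by norm_num)]
  norm_num
  linarith

/-- cubic Taylor lower bound for `exp`. -/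
theorem calcV_cubic_le_exp {t : ℝ} (ht : 0 ≤ t) : 1 + t + t ^ 2 / 2 + t ^ 3 / 6 ≤ Real.exp t := by
  have := Real.sum_le_exp_of_nonneg ht 4
  simp [Finset.sum_range_succ, Nat.factorial] at this
  linarith

/-- antiderivative of `(α + β u) e^{-r u}`. -/
theorem calcV_hasDerivAt (α β r u : ℝ) (hr : r ≠ 0) :
    HasDerivAt (fun u : ℝ => -((α / r + β / r ^ 2 + β * u / r) * Real.exp (-(r * u))))
      ((α + β * u) * Real.exp (-(r * u))) u := by
  have h1 : HasDerivAt (fun u : ℝ => α / r + β / r ^ 2 + β * u / r) (β / r) u := by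
    have := (((hasDerivAt_id u).const_mul β).div_const r).const_add (α / r + β / r ^ 2)
    simpa using this
  have h2 : HasDerivAt (fun u : ℝ => Real.exp (-(r * u))) (Real.exp (-(r * u)) * (-r)) u := by
    have := (((hasDerivAt_id u).const_mul r).neg).exp
    simpa using this
  have h3 : HasDerivAt (fun u : ℝ => -((α / r + β / r ^ 2 + β * u / r) * Real.exp (-(r * u))))
      (-(β / r * Real.exp (-(r * u))
        + (α / r + β / r ^ 2 + β * u / r) * (Real.exp (-(r * u)) * -r))) u :=
    (h1.mul h2).neg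
  have he : (α + β * u) * Real.exp (-(r * u)) = -(β / r * Real.exp (-(r * u))
        + (α / r + β / r ^ 2 + β * u / r) * (Real.exp (-(r * u)) * -r)) := by
    field_simp
    ring
  rw [he]; exact h3

/-- `(A + B u) e^{-r u} → 0`. -/
theorem calcV_tendsto (A B r : ℝ) (hr : 0 < r) :
    Filter.Tendsto (fun u : ℝ => -((A + B * u) * Real.exp (-(r * u)))) Filter.atTop (nhds 0) := by
  have h0 := tendsto_rpow_mul_exp_neg_mul_atTop_nhds_zero 0 r hr
  have h1 := tendsto_rpow_mul_exp_neg_mul_atTop_nhds_zero 1 r hr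
  have := ((h0.const_mul A).add (h1.const_mul B)).neg
  simp only [mul_zero, add_zero, neg_zero] at this
  refine this.congr (fun u => ?_)
  simp only [Real.rpow_zero, Real.rpow_one, neg_mul]
  ring

/-- integrability of `(α + β u) e^{-r u}` on `(c, ∞)`. -/
theorem calcV_integrableOn (α β r c : ℝ) (hr : 0 < r) :
    IntegrableOn (fun u : ℝ => (α + β * u) * Real.exp (-(r * u))) (Ioi c) := by
  -- the nonnegative piece `(u - c) e^{-r u}`
  have hpos : IntegrableOn (fun u : ℝ => (-c + 1 * u) * Real.exp (-(r * u))) (Ioi c) := by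
    refine integrableOn_Ioi_deriv_of_nonneg' (l := 0)
      (g := fun u : ℝ => -((-c / r + 1 / r ^ 2 + 1 * u / r) * Real.exp (-(r * u))))
      (fun x _ => calcV_hasDerivAt (-c) 1 r x hr.ne') (fun x hx => ?_) ?_
    · have hx' : c < x := hx
      exact mul_nonneg (by linarith) (Real.exp_pos _).le
    · have := calcV_tendsto (-c / r + 1 / r ^ 2) (1 / r) r hr
      refine this.congr (fun u => ?_)
      ring_nf
  have hexp : IntegrableOn (fun u : ℝ => Real.exp (-(r * u))) (Ioi c) := by
    have := integrableOn_exp_mul_Ioi (a := -r) (by linarith) c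
    refine this.congr_fun (fun u _ => ?_) measurableSet_Ioi
    simp
  have hsum : IntegrableOn (fun u : ℝ => (α + β * c) * Real.exp (-(r * u))
      + β * ((-c + 1 * u) * Real.exp (-(r * u)))) (Ioi c) :=
    (hexp.const_mul (α + β * c)).add (hpos.const_mul β)
  refine hsum.congr_fun (fun u _ => ?_) measurableSet_Ioi
  ring

/-- `∫_{(c,∞)} (α + β u) e^{-r u} du`. -/
theorem calcV_integral (α β r c : ℝ) (hr : 0 < r) :
    ∫ u in Ioi c, (α + β * u) * Real.exp (-(r * u))
      = (α / r + β / r ^ 2 + β * c / r) * Real.exp (-(r * c)) := by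
  have := integral_Ioi_of_hasDerivAt_of_tendsto' (a := c) (m := 0)
    (f := fun u : ℝ => -((α / r + β / r ^ 2 + β * u / r) * Real.exp (-(r * u))))
    (fun x _ => calcV_hasDerivAt α β r x hr.ne') (calcV_integrableOn α β r c hr)
    (by
      have := calcV_tendsto (α / r + β / r ^ 2) (β / r) r hr
      refine this.congr (fun u => ?_)
      ring_nf)
  rw [this]; ring

end Crest.Agent.S0423Lib
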