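/-
S0423 library, module C-basic (elementary facts on `phi` and `wt`).
SPEC: statements are frozen interfaces; replace each `sorry` by a proof, do not change statements
(if a statement is wrong/inconvenient tell helper8 via msgs).
Owner: helper4.
-/
import Crest.Agent.S0423Lib.CalcAux

set_option autoImplicit false

namespace Crest.Agent.S0423Lib

open MeasureTheory Set

/-! ### basic facts on `phi` and `wt` -/

theorem phi_of_le {x : ℝ} (hx : 4 / 3 + x ≤ 0) : phi x = 0 :=
  calcV_phi_of_le hx

theorem phi_of_pos {x : ℝ} (hx : 0 < 4 / 3 + x) :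
    phi x = 1 - (1 + (4 / 3 + x)) * Real.exp (-(4 / 3 + x)) :=
  calcV_phi_of_pos hx

/-- `(1 + y) e^{-y} ≤ 1`. -/
theorem calcBasic_g_le_one (y : ℝ) : (1 + y) * Real.exp (-y) ≤ 1 := by
  have h := Real.add_one_le_exp y
  have hpos := Real.exp_pos y
  rw [Real.exp_neg, ← div_eq_mul_inv, div_le_one hpos]
  linarith

theorem phi_nonneg (x : ℝ) : 0 ≤ phi x := by
  rcases le_or_gt (4 / 3 + x) 0 with h | h
  · rw [phi_of_le h]
  · rw [phi_of_pos h]
    have := calcBasic_g_le_one (4 / 3 + x)
    linarith

theorem phi_le_one (x : ℝ) : phi x ≤ 1 := by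
  rcases le_or_gt (4 / 3 + x) 0 with h | h
  · rw [phi_of_le h]; norm_num
  · rw [phi_of_pos h]
    have : 0 ≤ (1 + (4 / 3 + x)) * Real.exp (-(4 / 3 + x)) :=
      mul_nonneg (by linarith) (Real.exp_pos _).le
    linarith

theorem phi_continuous : Continuous phi := by
  unfold phi Crest.AlgGeometry.truncExpWeight
  refine continuous_const.sub ?_
  refine Continuous.if_le continuous_const ?_ (by fun_prop) continuous_const ?_
  · fun_prop
  · intro x hx
    rw [hx]; simp

theorem phi_mono : Monotone phi := by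
  intro x y hxy
  rcases le_or_gt (4 / 3 + y) 0 with hy | hy
  · have hx : 4 / 3 + x ≤ 0 := by linarith
    rw [phi_of_le hx, phi_of_le hy]
  · rcases le_or_gt (4 / 3 + x) 0 with hx | hx
    · rw [phi_of_le hx]; exact phi_nonneg y
    · rw [phi_of_pos hx, phi_of_pos hy]
      -- (1 + y') e^{-y'} ≤ (1 + x') e^{-x'} for 0 < x' ≤ y'
      set a := 4 / 3 + x with ha
      set c := 4 / 3 + y with hc
      have hac : a ≤ c := by rw [ha, hc]; linarith
      have hd := Real.add_one_le_exp (c - a)
      have hea : 0 < Real.exp (-a) := Real.exp_pos _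
      have hec : Real.exp (-a) = Real.exp (-c) * Real.exp (c - a) := by
        rw [← Real.exp_add]; congr 1; ring
      have hecpos : 0 < Real.exp (-c) := Real.exp_pos _
      have h1 : (1 + c) * Real.exp (-c) ≤ (1 + a) * Real.exp (-a) := by
        rw [hec]
        have : (1 + c) ≤ (1 + a) * Real.exp (c - a) := by nlinarith
        nlinarith
      linarith

theorem wt_nonneg (x : ℝ) : 0 ≤ wt x := by
  unfold wt
  split_ifs with h
  · exact le_rfl
  · exact mul_nonneg (by linarith [not_le.mp h]) (Real.exp_pos _).le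

/-- `sup wt = 1/e` (attained at `x = 1 - 4/3`). -/
theorem wt_le (x : ℝ) : wt x ≤ Real.exp (-1) := by
  unfold wt
  split_ifs with h
  · exact (Real.exp_pos _).le
  · -- y e^{-y} ≤ e^{-1}  ⟸  y ≤ e^{y-1}
    set y := 4 / 3 + x with hy
    have h1 := Real.add_one_le_exp (y - 1)
    have h2 : Real.exp (y - 1) = Real.exp (-1) * Real.exp y := by
      rw [← Real.exp_add]; congr 1; ring
    have h3 : Real.exp (-y) * Real.exp y = 1 := by
      rw [← Real.exp_add]; simp
    have h4 : 0 < Real.exp (-y) := Real.exp_pos _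
    have h5 : 0 < Real.exp (-1) := Real.exp_pos _
    calc y * Real.exp (-y) ≤ Real.exp (y - 1) * Real.exp (-y) :=
          mul_le_mul_of_nonneg_right (by linarith) h4.le
      _ = Real.exp (-1) := by rw [h2, mul_assoc, mul_comm (Real.exp y), h3, mul_one]

theorem wt_continuous : Continuous wt := by
  unfold wt
  refine Continuous.if_le continuous_const ?_ (by fun_prop) continuous_const ?_
  · fun_prop
  · intro x hx
    rw [hx]; simp

/-- `wt` as an indicator of an explicit function. -/
theorem calcBasic_wt_eq_indicator :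
    wt = (Ioi (-(4 / 3) : ℝ)).indicator
      (fun s : ℝ => (4 / 3 * Real.exp (-(4 / 3)) + Real.exp (-(4 / 3)) * s) * Real.exp (-(1 * s))) := by
  funext x
  unfold wt
  by_cases h : 4 / 3 + x ≤ 0
  · rw [if_pos h, Set.indicator_of_notMem]
    simp only [mem_Ioi, not_lt]; linarith
  · rw [if_neg h, Set.indicator_of_mem (by simp only [mem_Ioi]; linarith [not_le.mp h])]
    have : Real.exp (-(4 / 3 + x)) = Real.exp (-(4 / 3)) * Real.exp (-(1 * x)) := by
      rw [← Real.exp_add]; congr 1; ring
    rw [this]; ring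

theorem wt_integrable : Integrable wt := by
  rw [calcBasic_wt_eq_indicator, integrable_indicator_iff measurableSet_Ioi]
  exact calcV_integrableOn _ _ 1 _ one_pos

/-- derivative of `phi` at points `s > -4/3`. -/
theorem calcBasic_hasDerivAt_phi {s : ℝ} (hs : 0 < 4 / 3 + s) : HasDerivAt phi (wt s) s := by
  have h1 : HasDerivAt (fun x : ℝ => 1 - (1 + (4 / 3 + x)) * Real.exp (-(4 / 3 + x)))
      ((4 / 3 + s) * Real.exp (-(4 / 3 + s))) s := by
    have ha : HasDerivAt (fun x : ℝ => 1 + (4 / 3 + x)) 1 s := by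
      simpa using ((hasDerivAt_id s).const_add (4 / 3 : ℝ)).const_add 1
    have hb : HasDerivAt (fun x : ℝ => Real.exp (-(4 / 3 + x)))
        (Real.exp (-(4 / 3 + s)) * (-1)) s := by
      have := (((hasDerivAt_id s).const_add (4 / 3 : ℝ)).neg).exp
      simpa using this
    have hc : HasDerivAt (fun x : ℝ => 1 - (1 + (4 / 3 + x)) * Real.exp (-(4 / 3 + x)))
        (-(1 * Real.exp (-(4 / 3 + s)) + (1 + (4 / 3 + s)) * (Real.exp (-(4 / 3 + s)) * (-1)))) s := by
      have := (ha.mul hb).const_sub 1
      exact this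
    have he : (4 / 3 + s) * Real.exp (-(4 / 3 + s))
        = -(1 * Real.exp (-(4 / 3 + s)) + (1 + (4 / 3 + s)) * (Real.exp (-(4 / 3 + s)) * (-1))) := by
      ring
    rw [he]; exact hc
  have hw : wt s = (4 / 3 + s) * Real.exp (-(4 / 3 + s)) := by
    unfold wt; rw [if_neg (not_le.mpr hs)]
  rw [hw]
  refine h1.congr_of_eventuallyEq ?_
  have hopen : IsOpen {x : ℝ | 0 < 4 / 3 + x} := isOpen_lt continuous_const (by fun_prop)
  filter_upwards [hopen.mem_nhds (show s ∈ {x : ℝ | 0 < 4 / 3 + x} from hs)] with x hx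
  exact phi_of_pos hx

/-- `phi` is the primitive of `wt` vanishing at `-∞`. -/
theorem phi_eq_integral (x : ℝ) : phi x = ∫ s in Iio x, wt s := by
  rcases le_or_gt (4 / 3 + x) 0 with hx | hx
  · rw [phi_of_le hx]
    symm
    have : EqOn wt (fun _ => (0 : ℝ)) (Iio x) := by
      intro s hs
      have hs' : s < x := hs
      unfold wt
      rw [if_pos (by linarith)]
    rw [setIntegral_congr_fun measurableSet_Iio this]
    simp
  · -- x > -4/3
    have hle : (-(4 / 3) : ℝ) ≤ x := by linarith
    have h0 : phi (-(4 / 3)) = 0 := phi_of_le (by norm_num)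
    have hFTC : ∫ s in (-(4 / 3) : ℝ)..x, wt s = phi x - phi (-(4 / 3)) := by
      refine intervalIntegral.integral_eq_sub_of_hasDerivAt_of_le hle
        phi_continuous.continuousOn (fun s hs => ?_) ?_
      · exact calcBasic_hasDerivAt_phi (by linarith [hs.1])
      · exact wt_continuous.intervalIntegrable _ _
    rw [h0, sub_zero] at hFTC
    rw [← hFTC, intervalIntegral.integral_of_le hle]
    -- ∫_{Iio x} wt = ∫_{Ioc (-4/3) x} wt
    have hind : EqOn wt ((Ioi (-(4 / 3) : ℝ)).indicator wt) (Iio x) := by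
      intro s _
      by_cases hs : s ∈ Ioi (-(4 / 3) : ℝ)
      · rw [Set.indicator_of_mem hs]
      · rw [Set.indicator_of_notMem hs]
        have hs' : s ≤ -(4 / 3) := by simpa using hs
        unfold wt
        rw [if_pos (by linarith)]
    rw [setIntegral_congr_fun measurableSet_Iio hind, setIntegral_indicator measurableSet_Ioi]
    have hset : Iio x ∩ Ioi (-(4 / 3) : ℝ) = Ioo (-(4 / 3) : ℝ) x := by
      ext s; simp only [mem_inter_iff, mem_Iio, mem_Ioi, mem_Ioo]; tauto
    rw [hset, integral_Ioc_eq_integral_Ioo]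

/-- `phi` is `1/e`-Lipschitz. -/
theorem phi_sub_le {x y : ℝ} (h : x ≤ y) : phi y - phi x ≤ Real.exp (-1) * (y - x) := by
  rw [phi_eq_integral y, phi_eq_integral x]
  have hdiff : ∫ s in Iio y, wt s = (∫ s in Iio x, wt s) + ∫ s in Ico x y, wt s := by
    have hunion : Iio y = Iio x ∪ Ico x y := by
      ext s; simp only [mem_Iio, mem_union, mem_Ico]
      constructor
      · intro hs
        rcases lt_or_ge s x with h1 | h1
        · exact Or.inl h1
        · exact Or.inr ⟨h1, hs⟩
      · rintro (h1 | h1)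
        · exact lt_of_lt_of_le h1 h
        · exact h1.2
    have hdisj : Disjoint (Iio x) (Ico x y) := by
      rw [Set.disjoint_left]
      intro s hs1 hs2
      exact absurd hs2.1 (not_le.mpr hs1)
    rw [hunion, setIntegral_union hdisj measurableSet_Ico wt_integrable.integrableOn
      wt_integrable.integrableOn]
  rw [hdiff, add_sub_cancel_left]
  have hbound : ∫ s in Ico x y, wt s ≤ ∫ _s in Ico x y, Real.exp (-1) := by
    refine setIntegral_mono_on wt_integrable.integrableOn ?_ measurableSet_Ico
      (fun s _ => wt_le s)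
    exact integrableOn_const (by simp)
  refine hbound.trans ?_
  rw [setIntegral_const]
  simp [h, mul_comm]

end Crest.Agent.S0423Lib
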