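/-
S0423 library, module C-inner (inner integral of the sharpness family).
SPEC: statements are frozen interfaces; replace each `sorry` by a proof, do not change statements
(if a statement is wrong/inconvenient tell helper8 via msgs).
Owner: helper5.
-/
import Crest.Agent.S0423Lib.CalcBasic

set_option autoImplicit false

namespace Crest.Agent.S0423Lib

open MeasureTheory Set Filter Topology

/-! ### C2: inner integral for the sharpness family (coefficient `2`).

For `4/3 + t ≤ 0` there is equality; for `τ = 4/3 + t > 0` the integral equals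
`1 - exp (-τ) * ((1+τ)/3 + 2/9)`.

Proof used here: with `c = (4/3 + t)/2` and `ψ v = phi (2 v - 4/3) * exp (-v)` (nonnegative,
vanishing for `v ≤ 0`) one has `phi (2 u + t) * exp (-u) = exp c * ψ (u + c)`, hence the integral is
`exp c * ∫_{v > c} ψ ≤ exp c * ∫ ψ = exp c * ∫_{v > 0} (1 - (1 + 2 v) e^{-2 v}) e^{-v} = exp c * 4/9`. -/

/-- `ψ v = phi (2 v - 4/3) * exp (-v)`. -/
private noncomputable def innerPsi (v : ℝ) : ℝ := phi (2 * v - 4 / 3) * Real.exp (-v)

/-- antiderivative of `ψ` on `v ≥ 0`. -/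
private noncomputable def innerA (v : ℝ) : ℝ :=
  -Real.exp (-v) + ((1 + 2 * v) / 3 + 2 / 9) * Real.exp (-(3 * v))

/-- the explicit form of `ψ` on `v > 0`. -/
private noncomputable def innerD (v : ℝ) : ℝ :=
  (1 - (1 + 2 * v) * Real.exp (-(2 * v))) * Real.exp (-v)

private theorem inner_hasDerivAt (v : ℝ) : HasDerivAt innerA (innerD v) v := by
  have h1 : HasDerivAt (fun v : ℝ => Real.exp (-v)) (Real.exp (-v) * (-1)) v :=
    (Real.hasDerivAt_exp (-v)).comp v (hasDerivAt_neg v)
  have h2 : HasDerivAt (fun v : ℝ => Real.exp (-(3 * v))) (Real.exp (-(3 * v)) * (-3)) v := by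
    have h : HasDerivAt (fun v : ℝ => -(3 * v)) (-(3 * 1)) v :=
      ((hasDerivAt_id v).const_mul (3 : ℝ)).neg
    have h' := h.exp
    convert h' using 1
    ring
  have h3 : HasDerivAt (fun v : ℝ => (1 + 2 * v) / 3 + 2 / 9) (2 / 3 : ℝ) v := by
    have h := ((((hasDerivAt_id v).const_mul (2 : ℝ)).const_add (1 : ℝ)).div_const (3 : ℝ)).add_const
      (2 / 9 : ℝ)
    simpa using h
  have h4 := h1.neg.add (h3.mul h2)
  have e : innerD v = -(Real.exp (-v) * (-1)) +
      (2 / 3 * Real.exp (-(3 * v)) + ((1 + 2 * v) / 3 + 2 / 9) * (Real.exp (-(3 * v)) * (-3))) := by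
    have he : Real.exp (-(3 * v)) = Real.exp (-(2 * v)) * Real.exp (-v) := by
      rw [← Real.exp_add]; congr 1; ring
    unfold innerD
    rw [he]; ring
  rw [e]
  exact h4

private theorem innerD_nonneg (v : ℝ) : 0 ≤ innerD v := by
  unfold innerD
  have h1 : (1 + 2 * v) * Real.exp (-(2 * v)) ≤ 1 := by
    have h := Real.add_one_le_exp (2 * v)
    have hpos := Real.exp_pos (-(2 * v))
    calc (1 + 2 * v) * Real.exp (-(2 * v)) ≤ Real.exp (2 * v) * Real.exp (-(2 * v)) :=
          mul_le_mul_of_nonneg_right (by linarith) hpos.le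
      _ = 1 := by rw [← Real.exp_add]; simp
  exact mul_nonneg (by linarith) (Real.exp_pos _).le

private theorem innerA_tendsto : Tendsto innerA atTop (𝓝 0) := by
  have h1 : Tendsto (fun v : ℝ => Real.exp (-v)) atTop (𝓝 0) :=
    Real.tendsto_exp_neg_atTop_nhds_zero
  have h3 : Tendsto (fun v : ℝ => 3 * v) atTop atTop :=
    tendsto_id.const_mul_atTop (by norm_num : (0 : ℝ) < 3)
  have h2 : Tendsto (fun v : ℝ => Real.exp (-(3 * v))) atTop (𝓝 0) :=
    Real.tendsto_exp_neg_atTop_nhds_zero.comp h3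
  have h4 : Tendsto (fun v : ℝ => (3 * v) ^ 1 * Real.exp (-(3 * v))) atTop (𝓝 0) :=
    (Real.tendsto_pow_mul_exp_neg_atTop_nhds_zero 1).comp h3
  have h5 : Tendsto (fun v : ℝ => -Real.exp (-v) + (5 / 9 * Real.exp (-(3 * v)) +
      2 / 9 * ((3 * v) ^ 1 * Real.exp (-(3 * v))))) atTop (𝓝 (-0 + (5 / 9 * 0 + 2 / 9 * 0))) :=
    h1.neg.add ((h2.const_mul _).add (h4.const_mul _))
  have e : innerA = fun v : ℝ => -Real.exp (-v) + (5 / 9 * Real.exp (-(3 * v)) +
      2 / 9 * ((3 * v) ^ 1 * Real.exp (-(3 * v)))) := by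
    funext v; unfold innerA; ring
  rw [e]
  simpa using h5

private theorem innerD_integral : ∫ v in Ioi (0 : ℝ), innerD v = 4 / 9 := by
  have h := integral_Ioi_of_hasDerivAt_of_nonneg' (a := (0 : ℝ)) (g := innerA) (g' := innerD)
    (fun x _ => inner_hasDerivAt x) (fun x _ => innerD_nonneg x) innerA_tendsto
  rw [h]
  unfold innerA
  norm_num

private theorem innerD_integrableOn : IntegrableOn innerD (Ioi (0 : ℝ)) :=
  integrableOn_Ioi_deriv_of_nonneg' (a := (0 : ℝ)) (g := innerA) (g' := innerD)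
    (fun x _ => inner_hasDerivAt x) (fun x _ => innerD_nonneg x) innerA_tendsto

private theorem innerPsi_of_pos {v : ℝ} (hv : 0 < v) : innerPsi v = innerD v := by
  unfold innerPsi innerD
  have h : (0 : ℝ) < 4 / 3 + (2 * v - 4 / 3) := by linarith
  rw [phi_of_pos h]
  have e : (4 : ℝ) / 3 + (2 * v - 4 / 3) = 2 * v := by ring
  rw [e]

private theorem innerPsi_of_nonpos {v : ℝ} (hv : v ≤ 0) : innerPsi v = 0 := by
  unfold innerPsi
  have h : (4 : ℝ) / 3 + (2 * v - 4 / 3) ≤ 0 := by linarith
  rw [phi_of_le h, zero_mul]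

private theorem innerPsi_nonneg (v : ℝ) : 0 ≤ innerPsi v :=
  mul_nonneg (phi_nonneg _) (Real.exp_pos _).le

private theorem innerPsi_eq_indicator : innerPsi = (Ioi (0 : ℝ)).indicator innerD := by
  funext v
  by_cases hv : 0 < v
  · rw [indicator_of_mem (mem_Ioi.mpr hv), innerPsi_of_pos hv]
  · rw [indicator_of_notMem (by simpa using hv), innerPsi_of_nonpos (not_lt.mp hv)]

private theorem innerPsi_integrable : Integrable innerPsi := by
  rw [innerPsi_eq_indicator, integrable_indicator_iff measurableSet_Ioi]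
  exact innerD_integrableOn

private theorem innerPsi_integral : ∫ v, innerPsi v = 4 / 9 := by
  rw [innerPsi_eq_indicator, integral_indicator measurableSet_Ioi, innerD_integral]

theorem inner_le (t : ℝ) :
    ∫ u in Ioi (0 : ℝ), phi (2 * u + t) * Real.exp (-u) ≤ 4 / 9 * Real.exp ((4 / 3 + t) / 2) := by
  set c : ℝ := (4 / 3 + t) / 2 with hc
  have hfun : ∀ u : ℝ, phi (2 * u + t) * Real.exp (-u) = Real.exp c * innerPsi (u + c) := by
    intro u
    unfold innerPsi
    have e1 : 2 * (u + c) - 4 / 3 = 2 * u + t := by rw [hc]; ring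
    have e2 : Real.exp (-u) = Real.exp c * Real.exp (-(u + c)) := by
      rw [← Real.exp_add]; congr 1; ring
    rw [e1, e2]; ring
  have h1 : ∫ u in Ioi (0 : ℝ), phi (2 * u + t) * Real.exp (-u)
      = Real.exp c * ∫ u in Ioi (0 : ℝ), innerPsi (u + c) := by
    rw [← integral_const_mul]
    exact setIntegral_congr_fun measurableSet_Ioi (fun u _ => hfun u)
  have h2 : ∫ u in Ioi (0 : ℝ), innerPsi (u + c) = ∫ v in Ioi c, innerPsi v := by
    rw [← integral_indicator measurableSet_Ioi, ← integral_indicator measurableSet_Ioi]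
    rw [← integral_add_right_eq_self (fun v => (Ioi c).indicator innerPsi v) c]
    congr 1
    funext u
    by_cases hu : 0 < u
    · rw [indicator_of_mem (mem_Ioi.mpr hu), indicator_of_mem (by simpa using hu)]
    · rw [indicator_of_notMem (by simpa using hu), indicator_of_notMem (by simpa using hu)]
  have h3 : ∫ v in Ioi c, innerPsi v ≤ 4 / 9 := by
    rw [← innerPsi_integral]
    exact setIntegral_le_integral innerPsi_integrable
      (Filter.Eventually.of_forall fun v => innerPsi_nonneg v)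
  rw [h1, h2, mul_comm]
  exact mul_le_mul_of_nonneg_right h3 (Real.exp_pos c).le

end Crest.Agent.S0423Lib
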