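/-
S0423 library, module C-v (single centred exponential, degenerate case).
SPEC: statements are frozen interfaces; replace each `sorry` by a proof, do not change statements
(if a statement is wrong/inconvenient tell helper8 via msgs).
Owner: helper4.
-/
import Crest.Agent.S0423Lib.CalcBasic

set_option autoImplicit false

namespace Crest.Agent.S0423Lib

open MeasureTheory Set

/-! helper lemmas (prefix `calcV_`) are in `CalcAux.lean` -/

/-! ### C3: the degenerate case `T = 0` -/

theorem mstar_le_phi_zero : mstar ≤ phi 0 := by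
  have hphi : phi 0 = 1 - (1 + (4 / 3 : ℝ)) * Real.exp (-(4 / 3)) := by
    have := calcV_phi_of_pos (x := 0) (by norm_num)
    simpa using this
  have h2 := calcV_exp_neg_third_le
  have h0 : 0 < Real.exp (-(1 / 3)) := Real.exp_pos _
  have h3 : Real.exp (-(4 / 3)) = Real.exp (-(1 / 3)) ^ 4 := by
    rw [← Real.exp_nat_mul]; norm_num
  unfold mstar
  rw [hphi, h3]
  set x := Real.exp (-(1 / 3)) with hx
  have hx2 : x ^ 2 ≤ (18 / 25) ^ 2 := by nlinarith
  have hx4 : x ^ 4 ≤ (18 / 25) ^ 4 := by nlinarith [sq_nonneg x, sq_nonneg (x ^ 2)]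
  nlinarith

/-! ### C1: a single centred exponential `b (X - 1)`.

For `b ≥ 4/3` the integral equals `exp (4/(3b) - 1) * (b/(1+b))^2` and the bound is
`y ≤ exp (y - 1)` with `y = 2(1+b)/(3b)`.  For `b < 4/3` (put `t = 4/3 - b > 0`) it equals
`1 - exp (-t) * ((1+t)/(1+b) + b/(1+b)^2)`, which is `≥ 16/49 ≥ mstar`
(use `exp t ≥ 1 + t + t^2/2 + t^3/6` and `exp (1/3) ≥ 49/36`). -/

/-- the integral in the case `b ≤ 4/3`. -/
theorem calcV_integral_small (b : ℝ) (hb : 0 < b) (hb43 : b ≤ 4 / 3) :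
    ∫ u in Ioi (0 : ℝ), phi (-b + b * u) * Real.exp (-u)
      = 1 - Real.exp (-(4 / 3 - b)) * ((1 + (4 / 3 - b)) / (1 + b) + b / (1 + b) ^ 2) := by
  have hr : 0 < 1 + b := by linarith
  have hcongr : EqOn (fun u : ℝ => phi (-b + b * u) * Real.exp (-u))
      (fun u : ℝ => (1 + 0 * u) * Real.exp (-(1 * u))
        - Real.exp (-(4 / 3 - b)) * (((1 + (4 / 3 - b)) + b * u) * Real.exp (-((1 + b) * u))))
      (Ioi (0 : ℝ)) := by
    intro u hu
    have hu' : 0 < u := hu
    have hy : 0 < 4 / 3 + (-b + b * u) := by nlinarith [mul_pos hb hu']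
    have he : Real.exp (-(4 / 3 + (-b + b * u))) * Real.exp (-u)
        = Real.exp (-(4 / 3 - b)) * Real.exp (-((1 + b) * u)) := by
      rw [← Real.exp_add, ← Real.exp_add]; congr 1; ring
    have hsplit : (1 - (1 + (4 / 3 + (-b + b * u))) * Real.exp (-(4 / 3 + (-b + b * u))))
          * Real.exp (-u)
        = Real.exp (-u) - (1 + (4 / 3 + (-b + b * u)))
          * (Real.exp (-(4 / 3 + (-b + b * u))) * Real.exp (-u)) := by ring
    simp only [calcV_phi_of_pos hy]
    rw [hsplit, he]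
    simp only [one_mul, zero_mul, add_zero]
    ring
  rw [setIntegral_congr_fun measurableSet_Ioi hcongr]
  rw [integral_sub (calcV_integrableOn 1 0 1 0 one_pos)
    ((calcV_integrableOn (1 + (4 / 3 - b)) b (1 + b) 0 hr).const_mul _)]
  rw [integral_const_mul, calcV_integral 1 0 1 0 one_pos,
    calcV_integral (1 + (4 / 3 - b)) b (1 + b) 0 hr]
  simp

/-- the integral in the case `4/3 < b`. -/
theorem calcV_integral_large (b : ℝ) (hb43 : 4 / 3 < b) :
    ∫ u in Ioi (0 : ℝ), phi (-b + b * u) * Real.exp (-u)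
      = Real.exp (4 / (3 * b) - 1) * (b / (1 + b)) ^ 2 := by
  have hb : 0 < b := by linarith
  have hr : 0 < 1 + b := by linarith
  set u0 : ℝ := 1 - 4 / (3 * b) with hu0
  have hbu0 : b * u0 = b - 4 / 3 := by
    rw [hu0]; field_simp
  have hu0pos : 0 < u0 := by
    by_contra h
    have h' : u0 ≤ 0 := not_lt.mp h
    nlinarith
  have hcongr : EqOn (fun u : ℝ => phi (-b + b * u) * Real.exp (-u))
      ((Ioi u0).indicator (fun u : ℝ => (1 + 0 * u) * Real.exp (-(1 * u))
        - Real.exp (b * u0) * (((1 - b * u0) + b * u) * Real.exp (-((1 + b) * u)))))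
      (Ioi (0 : ℝ)) := by
    intro u _
    by_cases hu : u ∈ Ioi u0
    · have hu' : u0 < u := hu
      rw [Set.indicator_of_mem hu]
      have hy : 0 < 4 / 3 + (-b + b * u) := by nlinarith [mul_lt_mul_of_pos_left hu' hb]
      have he : Real.exp (-(4 / 3 + (-b + b * u))) * Real.exp (-u)
          = Real.exp (b * u0) * Real.exp (-((1 + b) * u)) := by
        rw [← Real.exp_add, ← Real.exp_add, hbu0]; congr 1; ring
      have hsplit : (1 - (1 + (4 / 3 + (-b + b * u))) * Real.exp (-(4 / 3 + (-b + b * u))))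
            * Real.exp (-u)
          = Real.exp (-u) - (1 + (4 / 3 + (-b + b * u)))
            * (Real.exp (-(4 / 3 + (-b + b * u))) * Real.exp (-u)) := by ring
      simp only [calcV_phi_of_pos hy]
      rw [hsplit, he, hbu0]
      simp only [one_mul, zero_mul, add_zero]
      ring
    · have hu' : u ≤ u0 := by simpa using hu
      rw [Set.indicator_of_notMem hu]
      have hy : 4 / 3 + (-b + b * u) ≤ 0 := by nlinarith [mul_le_mul_of_nonneg_left hu' hb.le]
      simp only [calcV_phi_of_le hy, zero_mul]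
  have hinter : Ioi (0 : ℝ) ∩ Ioi u0 = Ioi u0 := by
    ext x
    simp only [mem_inter_iff, mem_Ioi]
    constructor
    · exact fun h => h.2
    · exact fun h => ⟨lt_trans hu0pos h, h⟩
  rw [setIntegral_congr_fun measurableSet_Ioi hcongr, setIntegral_indicator measurableSet_Ioi,
    hinter]
  rw [integral_sub (calcV_integrableOn 1 0 1 u0 one_pos)
    ((calcV_integrableOn (1 - b * u0) b (1 + b) u0 hr).const_mul _)]
  rw [integral_const_mul, calcV_integral 1 0 1 u0 one_pos,
    calcV_integral (1 - b * u0) b (1 + b) u0 hr]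
  have he1 : Real.exp (b * u0) * Real.exp (-((1 + b) * u0)) = Real.exp (-u0) := by
    rw [← Real.exp_add]; congr 1; ring
  have he2 : Real.exp (4 / (3 * b) - 1) = Real.exp (-u0) := by
    congr 1; rw [hu0]; ring
  rw [he2]
  have hne : (1 + b) ≠ 0 := hr.ne'
  have key : Real.exp (b * u0) * (((1 - b * u0) / (1 + b) + b / (1 + b) ^ 2 + b * u0 / (1 + b))
      * Real.exp (-((1 + b) * u0)))
      = Real.exp (-u0) * (1 / (1 + b) + b / (1 + b) ^ 2) := by
    rw [← he1]
    field_simp
    ring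
  rw [key]
  simp only [one_mul, zero_mul, add_zero, div_one, zero_div]
  field_simp
  ring

theorem v_ge (b : ℝ) (hb : 0 < b) :
    mstar ≤ ∫ u in Ioi (0 : ℝ), phi (-b + b * u) * Real.exp (-u) := by
  have hr : 0 < 1 + b := by linarith
  rcases le_or_gt b (4 / 3) with hb43 | hb43
  · -- case `b ≤ 4/3`
    rw [calcV_integral_small b hb hb43]
    set t : ℝ := 4 / 3 - b with ht
    have ht0 : 0 ≤ t := by rw [ht]; linarith
    have ht1 : t < 4 / 3 := by rw [ht]; linarith
    have hb' : b = 4 / 3 - t := by rw [ht]; ring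
    have hexp := calcV_cubic_le_exp ht0
    have hexp_pos : 0 < Real.exp t := Real.exp_pos t
    -- the bracket is `N / (1+b)^2` with `N = (1+t)(1+b) + b`
    have hbr : (1 + t) / (1 + b) + b / (1 + b) ^ 2 = ((1 + t) * (1 + b) + b) / (1 + b) ^ 2 := by
      field_simp
    have hpoly : (1 + t) * (1 + b) + b ≤ 33 / 49 * (1 + b) ^ 2 * (1 + t + t ^ 2 / 2 + t ^ 3 / 6) := by
      rw [hb']
      nlinarith [mul_nonneg ht0 (sub_nonneg.mpr ht1.le), mul_nonneg (mul_nonneg ht0 ht0) (sub_nonneg.mpr ht1.le),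
        mul_nonneg (mul_nonneg ht0 ht0) (mul_nonneg ht0 (sub_nonneg.mpr ht1.le)),
        mul_nonneg (mul_nonneg ht0 ht0) (mul_nonneg ht0 ht0), pow_nonneg ht0 3, pow_nonneg ht0 5,
        mul_nonneg (pow_nonneg ht0 3) (sub_nonneg.mpr ht1.le),
        mul_nonneg (pow_nonneg ht0 4) (sub_nonneg.mpr ht1.le)]
    have hN : (1 + t) * (1 + b) + b ≤ 33 / 49 * (1 + b) ^ 2 * Real.exp t :=
      hpoly.trans (mul_le_mul_of_nonneg_left hexp (by positivity))
    have hmain : Real.exp (-t) * ((1 + t) / (1 + b) + b / (1 + b) ^ 2) ≤ 33 / 49 := by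
      rw [hbr, Real.exp_neg, inv_mul_eq_div, div_div, div_le_iff₀ (by positivity)]
      linarith
    have hm : mstar ≤ 16 / 49 := by
      unfold mstar
      have := calcV_exp_neg_third_le
      linarith
    linarith
  · -- case `4/3 < b`
    rw [calcV_integral_large b hb43]
    have hb0 : b ≠ 0 := hb.ne'
    set y : ℝ := 2 / 3 * ((1 + b) / b) with hy
    have hypos : 0 < y := by rw [hy]; positivity
    have h1 : y ≤ Real.exp (y - 1) := by
      have := Real.add_one_le_exp (y - 1)
      linarith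
    have h2 : y ^ 2 ≤ Real.exp (y - 1) ^ 2 := pow_le_pow_left₀ hypos.le h1 2
    have h3 : Real.exp (4 / (3 * b) - 1) = Real.exp (-(1 / 3)) * Real.exp (y - 1) ^ 2 := by
      rw [← Real.exp_nat_mul, ← Real.exp_add]
      congr 1
      rw [hy]; field_simp; ring
    have h4 : y ^ 2 * (b / (1 + b)) ^ 2 = 4 / 9 := by
      rw [hy]; field_simp; ring
    unfold mstar
    rw [h3]
    have h5 : 0 < Real.exp (-(1 / 3)) := Real.exp_pos _
    have h6 : 0 ≤ (b / (1 + b)) ^ 2 := by positivity
    calc 4 / 9 * Real.exp (-(1 / 3)) = Real.exp (-(1 / 3)) * (y ^ 2 * (b / (1 + b)) ^ 2) := by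
          rw [h4]; ring
      _ ≤ Real.exp (-(1 / 3)) * (Real.exp (y - 1) ^ 2 * (b / (1 + b)) ^ 2) :=
          mul_le_mul_of_nonneg_left (mul_le_mul_of_nonneg_right h2 h6) h5.le
      _ = Real.exp (-(1 / 3)) * Real.exp (y - 1) ^ 2 * (b / (1 + b)) ^ 2 := by ring

end Crest.Agent.S0423Lib
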