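/-
S0423 library, module K-aux (the easy lemmas of Closure.lean: base case, `expAvg 0`, `< 1` facts).
Owner: helper8.  Statements are identical to the corresponding spec lemmas in Closure.lean.
-/
import Crest.Agent.S0423Lib.Defs

set_option autoImplicit false

namespace Crest.Agent.S0423Lib

open MeasureTheory Set

/-- base case: survival function of `c X`, `c > 0`. -/
theorem closureAux_base (c : ℝ) (hc : 0 < c) (s : ℝ) :
    expAvg c (fun s => if s < 0 then (1 : ℝ) else 0) s = min 1 (Real.exp (-s / c)) := by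
  unfold expAvg
  have h2 : ∀ u : ℝ, Real.exp (-u) * (if s - c * u < 0 then (1 : ℝ) else 0)
      = (Ioi (s / c)).indicator (fun u => Real.exp (-u)) u := by
    intro u
    by_cases hu : s / c < u
    · have : s - c * u < 0 := by
        rw [div_lt_iff₀ hc] at hu; linarith
      simp [indicator, hu, this]
    · have : ¬ s - c * u < 0 := by
        rw [div_lt_iff₀ hc] at hu; push Not at hu ⊢; linarith
      simp [indicator, hu, this]
  simp only [h2]
  rw [integral_indicator measurableSet_Ioi, Measure.restrict_restrict measurableSet_Ioi,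
    Ioi_inter_Ioi, integral_exp_neg_Ioi]
  have e : -s / c = -(s / c) := by ring
  rw [e]
  rcases le_total (s / c) 0 with h | h
  · rw [sup_of_le_right h, neg_zero, Real.exp_zero, min_eq_left]
    rw [Real.one_le_exp_iff]; linarith
  · rw [sup_of_le_left h, min_eq_right]
    rw [Real.exp_le_one_iff]; linarith

theorem closureAux_log_base (c s : ℝ) :
    Real.log (min 1 (Real.exp (-s / c))) = min 0 (-s / c) := by
  rcases le_total (-s / c) 0 with h | h
  · rw [min_eq_right (Real.exp_le_one_iff.mpr h), Real.log_exp, min_eq_right h]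
  · rw [min_eq_left (Real.one_le_exp_iff.mpr h), Real.log_one, min_eq_left h]

theorem closureAux_isLCSurv_base (c : ℝ) (hc : 0 < c) :
    IsLCSurv (fun s => min 1 (Real.exp (-s / c))) where
  cont := by fun_prop
  pos := fun s => lt_min zero_lt_one (Real.exp_pos _)
  le_one := fun s => min_le_left _ _
  anti := by
    intro s t hst
    apply min_le_min le_rfl
    apply Real.exp_le_exp.mpr
    apply div_le_div_of_nonneg_right _ hc.le
    linarith
  conc := by
    have h : (fun s => Real.log (min 1 (Real.exp (-s / c)))) = fun s => min 0 (-s / c) :=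
      funext (closureAux_log_base c)
    rw [h]
    have h1 : ConcaveOn ℝ univ (fun _ : ℝ => (0 : ℝ)) := concaveOn_const 0 convex_univ
    have h2 : ConcaveOn ℝ univ (fun s : ℝ => -s / c) := by
      have : (fun s : ℝ => -s / c) = fun s => (-(1 / c)) * s := by funext s; ring
      rw [this]
      refine ⟨convex_univ, fun x _ y _ a b _ _ _ => ?_⟩
      simp only [smul_eq_mul]
      apply le_of_eq
      ring
    exact h1.inf h2

theorem closureAux_base_exists_lt_one (c : ℝ) (hc : 0 < c) :
    ∃ s, min 1 (Real.exp (-s / c)) < 1 := by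
  refine ⟨c, ?_⟩
  apply min_lt_of_right_lt
  rw [Real.exp_lt_one_iff]
  have : -c / c = -1 := by field_simp
  rw [this]; norm_num

theorem closureAux_expAvg_zero (G : ℝ → ℝ) : expAvg 0 G = G := by
  funext s
  unfold expAvg
  simp only [zero_mul, sub_zero]
  rw [integral_mul_const, integral_exp_neg_Ioi_zero, one_mul]

theorem closureAux_integrableOn {G : ℝ → ℝ} (hG : IsLCSurv G) (c s : ℝ) :
    IntegrableOn (fun u => Real.exp (-u) * G (s - c * u)) (Ioi 0) := by
  have hint : IntegrableOn (fun u : ℝ => Real.exp (-u)) (Ioi 0) := integrableOn_exp_neg_Ioi 0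
  refine Integrable.mono' hint ?_ ?_
  · have := hG.cont
    exact (Continuous.aestronglyMeasurable (by fun_prop))
  · refine Filter.Eventually.of_forall (fun u => ?_)
    have h0 := (hG.pos (s - c * u)).le
    have h1 := hG.le_one (s - c * u)
    have he := Real.exp_pos (-u)
    rw [Real.norm_eq_abs, abs_of_nonneg (mul_nonneg he.le h0)]
    nlinarith

/-- if `G < 1` somewhere on the ray `{s - c u | u > 0}` then `expAvg c G s < 1`. -/
theorem closureAux_lt_one_core {G : ℝ → ℝ} (hG : IsLCSurv G) (c s : ℝ) {u : ℝ} (hu : 0 < u)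
    (h : G (s - c * u) < 1) : expAvg c G s < 1 := by
  have hint : IntegrableOn (fun u : ℝ => Real.exp (-u)) (Ioi 0) := integrableOn_exp_neg_Ioi 0
  have hI := closureAux_integrableOn hG c s
  have hD : IntegrableOn (fun u => Real.exp (-u) * (1 - G (s - c * u))) (Ioi 0) := by
    have := hint.sub hI
    refine this.congr_fun (fun u _ => ?_) measurableSet_Ioi
    simp only [Pi.sub_apply]; ring
  have hcont : Continuous (fun u => Real.exp (-u) * (1 - G (s - c * u))) := by
    have := hG.cont
    fun_prop
  have hpos : 0 < ∫ u in Ioi 0, Real.exp (-u) * (1 - G (s - c * u)) := by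
    rw [setIntegral_pos_iff_support_of_nonneg_ae
      (Filter.Eventually.of_forall fun u =>
        mul_nonneg (Real.exp_pos _).le (sub_nonneg.mpr (hG.le_one _))) hD]
    have hopen : IsOpen (Function.support (fun u => Real.exp (-u) * (1 - G (s - c * u))) ∩ Ioi 0) :=
      hcont.isOpen_support.inter isOpen_Ioi
    refine hopen.measure_pos volume ⟨u, ?_, hu⟩
    rw [Function.mem_support]
    exact (mul_pos (Real.exp_pos _) (sub_pos.mpr h)).ne'
  have hsplit : ∫ u in Ioi 0, Real.exp (-u) * (1 - G (s - c * u))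
      = (∫ u in Ioi (0 : ℝ), Real.exp (-u)) - ∫ u in Ioi 0, Real.exp (-u) * G (s - c * u) := by
    rw [← integral_sub hint hI]
    congr 1
    funext u
    ring
  rw [hsplit, integral_exp_neg_Ioi_zero] at hpos
  unfold expAvg
  linarith

theorem closureAux_exists_lt_one {G : ℝ → ℝ} (hG : IsLCSurv G) (c : ℝ) (h : ∃ s, G s < 1) :
    ∃ s, expAvg c G s < 1 := by
  obtain ⟨s₀, hs₀⟩ := h
  refine ⟨s₀ + |c| + 1, closureAux_lt_one_core hG c _ (u := 1) one_pos ?_⟩
  refine lt_of_le_of_lt (hG.anti ?_) hs₀
  have := le_abs_self c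
  linarith

theorem closureAux_lt_one_of_neg {G : ℝ → ℝ} (hG : IsLCSurv G) {c : ℝ} (hc : c < 0)
    (h : ∃ s, G s < 1) : ∀ s, expAvg c G s < 1 := by
  obtain ⟨s₀, hs₀⟩ := h
  intro s
  have hu : 0 < max 1 ((s₀ - s) / (-c)) := lt_max_of_lt_left one_pos
  refine closureAux_lt_one_core hG c s hu ?_
  refine lt_of_le_of_lt (hG.anti ?_) hs₀
  have h1 : (s₀ - s) / (-c) ≤ max 1 ((s₀ - s) / (-c)) := le_max_right _ _
  rw [div_le_iff₀ (by linarith)] at h1
  linarith

theorem closureAux_lt_one {G : ℝ → ℝ} (hG : IsLCSurv G) (c : ℝ) (h : ∀ s, G s < 1) :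
    ∀ s, expAvg c G s < 1 :=
  fun s => closureAux_lt_one_core hG c s one_pos (h _)

end Crest.Agent.S0423Lib
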