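/-
S0423 library, module K-conc: `IsLCSurv` is preserved by `expAvg c` GIVEN the derivative formula
`HasDerivAt (expAvg c G) ((G s - expAvg c G s) / c) s`.  Owner: helper8.
-/
import Crest.Agent.S0423Lib.ClosureAux

set_option autoImplicit false

namespace Crest.Agent.S0423Lib

open MeasureTheory Set

theorem closureConc_pos {G : ℝ → ℝ} (hG : IsLCSurv G) (c s : ℝ) : 0 < expAvg c G s := by
  unfold expAvg
  have hI := closureAux_integrableOn hG c s
  rw [setIntegral_pos_iff_support_of_nonneg_ae
    (Filter.Eventually.of_forall fun u => mul_nonneg (Real.exp_pos _).le (hG.pos _).le) hI]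
  have hsupp : Function.support (fun u => Real.exp (-u) * G (s - c * u)) = univ := by
    ext u
    simp only [Function.mem_support, mem_univ, iff_true]
    exact (mul_pos (Real.exp_pos _) (hG.pos _)).ne'
  rw [hsupp, univ_inter]
  simp

theorem closureConc_le_one {G : ℝ → ℝ} (hG : IsLCSurv G) (c s : ℝ) : expAvg c G s ≤ 1 := by
  unfold expAvg
  have hint : IntegrableOn (fun u : ℝ => Real.exp (-u)) (Ioi 0) := integrableOn_exp_neg_Ioi 0
  rw [← integral_exp_neg_Ioi_zero]
  apply setIntegral_mono_on (closureAux_integrableOn hG c s) hint measurableSet_Ioi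
  intro u _
  have h1 := hG.le_one (s - c * u)
  have he := Real.exp_pos (-u)
  nlinarith

theorem closureConc_anti {G : ℝ → ℝ} (hG : IsLCSurv G) (c : ℝ) : Antitone (expAvg c G) := by
  intro s t hst
  unfold expAvg
  apply setIntegral_mono_on (closureAux_integrableOn hG c t) (closureAux_integrableOn hG c s)
    measurableSet_Ioi
  intro u _
  have h1 : G (t - c * u) ≤ G (s - c * u) := hG.anti (by linarith)
  exact mul_le_mul_of_nonneg_left h1 (Real.exp_pos _).le

/-- four point inequality for the log-concave `G`. -/
theorem closureConc_fourpt {G : ℝ → ℝ} (hG : IsLCSurv G) {a b b' d : ℝ} (hab : a ≤ b)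
    (hbd : b ≤ d) (hsum : a + d = b + b') : G a * G d ≤ G b * G b' := by
  have key : Real.log (G a) + Real.log (G d) ≤ Real.log (G b) + Real.log (G b') := by
    rcases eq_or_lt_of_le (hab.trans hbd) with had | had
    · have h1 : b = a := le_antisymm (had ▸ hbd) hab
      have h2 : b' = a := by linarith
      rw [h1, h2, ← had]
    · have hda : 0 < d - a := by linarith
      set t := (b - a) / (d - a) with ht
      have ht0 : 0 ≤ t := div_nonneg (by linarith) hda.le
      have ht1 : 0 ≤ 1 - t := by
        rw [ht, sub_nonneg, div_le_one hda]; linarith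
      have hb : (1 - t) • a + t • d = b := by
        simp only [smul_eq_mul, ht]; field_simp; ring
      have hb' : t • a + (1 - t) • d = b' := by
        have : b' = a + d - b := by linarith
        rw [this]
        simp only [smul_eq_mul, ht]; field_simp; ring
      have c1 := hG.conc.2 (mem_univ a) (mem_univ d) ht1 ht0 (by ring)
      have c2 := hG.conc.2 (mem_univ a) (mem_univ d) ht0 ht1 (by ring)
      rw [hb] at c1
      rw [hb'] at c2
      simp only [smul_eq_mul] at c1 c2
      nlinarith
  have h := Real.exp_le_exp.mpr key
  rwa [Real.exp_add, Real.exp_add, Real.exp_log (hG.pos _), Real.exp_log (hG.pos _),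
    Real.exp_log (hG.pos _), Real.exp_log (hG.pos _)] at h

/-- the integrated four point inequality: `expAvg c G / G` is monotone (`c > 0`) resp. antitone. -/
theorem closureConc_cross {G : ℝ → ℝ} (hG : IsLCSurv G) (c : ℝ) {s s' : ℝ} (hss : s ≤ s') :
    c * (expAvg c G s * G s' - expAvg c G s' * G s) ≤ 0 := by
  have hI := closureAux_integrableOn hG c s
  have hI' := closureAux_integrableOn hG c s'
  have hpt : ∀ u ∈ Ioi (0 : ℝ),
      c * (Real.exp (-u) * G (s - c * u) * G s' - Real.exp (-u) * G (s' - c * u) * G s) ≤ 0 := by
    intro u hu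
    have hu0 : (0 : ℝ) < u := hu
    have he := Real.exp_pos (-u)
    rcases le_total 0 c with hc | hc
    · -- `s - c u ≤ s ≤ s'`
      have h4 := closureConc_fourpt hG (a := s - c * u) (b := s) (b' := s' - c * u) (d := s')
        (by nlinarith) hss (by ring)
      have : Real.exp (-u) * G (s - c * u) * G s' - Real.exp (-u) * G (s' - c * u) * G s ≤ 0 := by
        nlinarith
      exact mul_nonpos_of_nonneg_of_nonpos hc this
    · -- `s ≤ s' ≤ s' - c u`
      have h4 := closureConc_fourpt hG (a := s) (b := s') (b' := s - c * u) (d := s' - c * u)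
        hss (by nlinarith) (by ring)
      have : 0 ≤ Real.exp (-u) * G (s - c * u) * G s' - Real.exp (-u) * G (s' - c * u) * G s := by
        nlinarith
      exact mul_nonpos_of_nonpos_of_nonneg hc this
  have hint : ∫ u in Ioi (0 : ℝ),
      c * (Real.exp (-u) * G (s - c * u) * G s' - Real.exp (-u) * G (s' - c * u) * G s) ≤ 0 :=
    setIntegral_nonpos measurableSet_Ioi hpt
  have heq : ∫ u in Ioi (0 : ℝ),
      c * (Real.exp (-u) * G (s - c * u) * G s' - Real.exp (-u) * G (s' - c * u) * G s)
      = c * (expAvg c G s * G s' - expAvg c G s' * G s) := by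
    unfold expAvg
    rw [integral_const_mul, integral_sub (hI.mul_const _) (hI'.mul_const _), integral_mul_const,
      integral_mul_const]
  rw [heq] at hint
  exact hint

/-- closure of the class under `expAvg c`, given the derivative formula. -/
theorem closureConc_main {G : ℝ → ℝ} (hG : IsLCSurv G) {c : ℝ} (hc : c ≠ 0)
    (hderiv : ∀ s, HasDerivAt (expAvg c G) ((G s - expAvg c G s) / c) s) :
    IsLCSurv (expAvg c G) where
  cont := continuous_iff_continuousAt.mpr fun s => (hderiv s).continuousAt
  pos := closureConc_pos hG c
  le_one := closureConc_le_one hG c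
  anti := closureConc_anti hG c
  conc := by
    have hlog : ∀ s, HasDerivAt (fun s => Real.log (expAvg c G s))
        ((G s - expAvg c G s) / c / expAvg c G s) s :=
      fun s => (hderiv s).log (closureConc_pos hG c s).ne'
    have hcontlog : Continuous (fun s => Real.log (expAvg c G s)) :=
      continuous_iff_continuousAt.mpr fun s => (hlog s).continuousAt
    apply AntitoneOn.concaveOn_of_deriv convex_univ hcontlog.continuousOn
    · exact fun s _ => (hlog s).differentiableAt.differentiableWithinAt
    · rw [interior_univ]
      intro s _ s' _ hss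
      rw [(hlog s).deriv, (hlog s').deriv]
      have hA := closureConc_pos hG c s
      have hB := closureConc_pos hG c s'
      have hcross := closureConc_cross hG c hss
      have hc2 : 0 < c ^ 2 := by positivity
      have hdiff : (G s' - expAvg c G s') / c / expAvg c G s'
          - (G s - expAvg c G s) / c / expAvg c G s
          = c * (expAvg c G s * G s' - expAvg c G s' * G s)
            / (c ^ 2 * expAvg c G s * expAvg c G s') := by
        field_simp
        ring
      have hle : c * (expAvg c G s * G s' - expAvg c G s' * G s)
            / (c ^ 2 * expAvg c G s * expAvg c G s') ≤ 0 :=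
        div_nonpos_of_nonpos_of_nonneg hcross (by positivity)
      linarith

end Crest.Agent.S0423Lib
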