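/-
S0423 library, module K-deriv (owner: helper4): the derivative of the exponential average,
`(expAvg c G)' = (G - expAvg c G) / c` for bounded continuous `G` and `c ≠ 0`.
-/
import Crest.Agent.S0423Lib.Defs

set_option autoImplicit false

namespace Crest.Agent.S0423Lib

open MeasureTheory Set

/-- `e^{t/c} G t` is integrable on `(-∞, a]` for `c > 0` and bounded continuous `G`. -/
theorem closureDeriv_integrableOn_Iic {G : ℝ → ℝ} (hG : Continuous G) (hb : ∀ t, |G t| ≤ 1)
    {c : ℝ} (hc : 0 < c) (a : ℝ) :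
    IntegrableOn (fun t : ℝ => Real.exp (t / c) * G t) (Iic a) := by
  have hint : IntegrableOn (fun t : ℝ => Real.exp (c⁻¹ * t)) (Iic a) :=
    integrableOn_exp_mul_Iic (inv_pos.mpr hc) a
  refine Integrable.mono' hint ?_ ?_
  · exact (by fun_prop : Continuous fun t : ℝ => Real.exp (t / c) * G t).aestronglyMeasurable
  · refine Filter.Eventually.of_forall (fun t => ?_)
    rw [Real.norm_eq_abs, abs_mul, abs_of_pos (Real.exp_pos _)]
    have : Real.exp (t / c) = Real.exp (c⁻¹ * t) := by congr 1; field_simp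
    rw [this]
    exact mul_le_of_le_one_right (Real.exp_pos _).le (hb t)

/-- change of variables `t = s - c u` for `c > 0`. -/
theorem closureDeriv_expAvg_eq {G : ℝ → ℝ} {c : ℝ} (hc : 0 < c) (s : ℝ) :
    expAvg c G s = c⁻¹ * (Real.exp (-s / c) * ∫ t in Iic s, Real.exp (t / c) * G t) := by
  unfold expAvg
  have h1 : ∫ u in Ioi (0 : ℝ), Real.exp (-u) * G (s - c * u)
      = c⁻¹ * ∫ x in Ioi (0 : ℝ), Real.exp (-x / c) * G (s - x) := by
    have := integral_comp_mul_left_Ioi (fun x : ℝ => Real.exp (-x / c) * G (s - x)) 0 hc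
    simp only [mul_zero, smul_eq_mul] at this
    rw [← this]
    refine setIntegral_congr_fun measurableSet_Ioi (fun u _ => ?_)
    have hu : -(c * u) / c = -u := by field_simp
    show Real.exp (-u) * G (s - c * u) = Real.exp (-(c * u) / c) * G (s - c * u)
    rw [hu]
  have h2 : ∫ x in Ioi (0 : ℝ), Real.exp (-x / c) * G (s - x)
      = ∫ t in Iic s, Real.exp (-(s - t) / c) * G t := by
    rw [integral_Iic_eq_integral_Iio, ← integral_indicator measurableSet_Ioi,
      ← integral_indicator measurableSet_Iio]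
    rw [← integral_sub_left_eq_self
      ((Ioi (0 : ℝ)).indicator fun x : ℝ => Real.exp (-x / c) * G (s - x)) volume s]
    congr 1
    funext t
    by_cases ht : t < s
    · rw [Set.indicator_of_mem (show s - t ∈ Ioi (0 : ℝ) by simpa using ht),
        Set.indicator_of_mem (show t ∈ Iio s from ht)]
      simp
    · rw [Set.indicator_of_notMem (show s - t ∉ Ioi (0 : ℝ) by simpa using ht),
        Set.indicator_of_notMem (show t ∉ Iio s from ht)]
  have h3 : ∫ t in Iic s, Real.exp (-(s - t) / c) * G t
      = Real.exp (-s / c) * ∫ t in Iic s, Real.exp (t / c) * G t := by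
    rw [← integral_const_mul]
    refine setIntegral_congr_fun measurableSet_Iic (fun t _ => ?_)
    show Real.exp (-(s - t) / c) * G t = Real.exp (-s / c) * (Real.exp (t / c) * G t)
    rw [← mul_assoc, ← Real.exp_add]
    congr 2
    ring
  rw [h1, h2, h3]

/-- the primitive `s ↦ ∫_{(-∞, s]} e^{t/c} G t` has derivative `e^{s/c} G s`. -/
theorem closureDeriv_hasDerivAt_prim {G : ℝ → ℝ} (hG : Continuous G) (hb : ∀ t, |G t| ≤ 1)
    {c : ℝ} (hc : 0 < c) (s : ℝ) :
    HasDerivAt (fun s : ℝ => ∫ t in Iic s, Real.exp (t / c) * G t)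
      (Real.exp (s / c) * G s) s := by
  have hcont : Continuous fun t : ℝ => Real.exp (t / c) * G t := by fun_prop
  have hI := closureDeriv_integrableOn_Iic hG hb hc
  have hF : (fun s : ℝ => ∫ t in Iic s, Real.exp (t / c) * G t)
      = fun s : ℝ => (∫ t in Iic (0 : ℝ), Real.exp (t / c) * G t)
          + ∫ t in (0 : ℝ)..s, Real.exp (t / c) * G t := by
    funext x
    rw [← intervalIntegral.integral_Iic_sub_Iic (hI 0) (hI x)]
    ring
  rw [hF]
  refine HasDerivAt.const_add _ ?_
  exact intervalIntegral.integral_hasDerivAt_right (hcont.intervalIntegrable _ _)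
    (hcont.stronglyMeasurableAtFilter _ _) hcont.continuousAt

/-- derivative of `expAvg c G` for `c > 0`. -/
theorem closureDeriv_hasDerivAt_pos {G : ℝ → ℝ} (hG : Continuous G) (hb : ∀ t, |G t| ≤ 1)
    {c : ℝ} (hc : 0 < c) (s : ℝ) :
    HasDerivAt (expAvg c G) ((G s - expAvg c G s) / c) s := by
  have hfun : expAvg c G
      = fun s : ℝ => c⁻¹ * (Real.exp (-s / c) * ∫ t in Iic s, Real.exp (t / c) * G t) := by
    funext x; exact closureDeriv_expAvg_eq hc x
  have hE : HasDerivAt (fun s : ℝ => Real.exp (-s / c)) (Real.exp (-s / c) * (-1 / c)) s := by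
    have := (((hasDerivAt_id s).neg).div_const c).exp
    simpa using this
  have hP := closureDeriv_hasDerivAt_prim hG hb hc s
  have hprod := (hE.mul hP).const_mul c⁻¹
  have hval : (G s - expAvg c G s) / c
      = c⁻¹ * (Real.exp (-s / c) * (-1 / c) * (∫ t in Iic s, Real.exp (t / c) * G t)
          + Real.exp (-s / c) * (Real.exp (s / c) * G s)) := by
    rw [closureDeriv_expAvg_eq hc s]
    have hee : Real.exp (-s / c) * Real.exp (s / c) = 1 := by
      rw [← Real.exp_add]; simp [neg_div]
    have hc' : c ≠ 0 := hc.ne'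
    have hG1 : Real.exp (-s / c) * (Real.exp (s / c) * G s) = G s := by
      rw [← mul_assoc, hee, one_mul]
    rw [hG1]
    generalize Real.exp (-s / c) = E
    generalize (∫ t in Iic s, Real.exp (t / c) * G t) = K
    field_simp
    ring
  rw [hfun, ← hfun, hval]
  rw [hfun]
  exact hprod

/-- derivative of `expAvg c G`, any `c ≠ 0`. -/
theorem closureDeriv_hasDerivAt {G : ℝ → ℝ} (hG : Continuous G) (hb : ∀ t, |G t| ≤ 1)
    {c : ℝ} (hc : c ≠ 0) (s : ℝ) :
    HasDerivAt (expAvg c G) ((G s - expAvg c G s) / c) s := by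
  rcases lt_or_gt_of_ne hc with hneg | hpos
  · -- reflect
    have hG' : Continuous fun t : ℝ => G (-t) := hG.comp continuous_neg
    have hb' : ∀ t, |G (-t)| ≤ 1 := fun t => hb (-t)
    have hrefl : ∀ x, expAvg c G x = expAvg (-c) (fun t : ℝ => G (-t)) (-x) := by
      intro x
      unfold expAvg
      refine setIntegral_congr_fun measurableSet_Ioi (fun u _ => ?_)
      simp only
      congr 2
      ring
    have hfun : expAvg c G = fun x : ℝ => expAvg (-c) (fun t : ℝ => G (-t)) (-x) := by
      funext x; exact hrefl x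
    have hD := closureDeriv_hasDerivAt_pos hG' hb' (c := -c) (by linarith) (-s)
    have hcomp := hD.scomp s (hasDerivAt_neg s)
    have hval : (G s - expAvg c G s) / c
        = (-1 : ℝ) • ((G (- -s) - expAvg (-c) (fun t : ℝ => G (-t)) (-s)) / -c) := by
      rw [hrefl s, neg_neg, smul_eq_mul]
      field_simp
    rw [hval, hfun]
    exact hcomp
  · exact closureDeriv_hasDerivAt_pos hG hb hpos s

end Crest.Agent.S0423Lib
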