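/-
S0423 library, module E auxiliary (owner: helper6): direct computations for the survival function
`expSurv β b` of the shifted exponential: integrability and the mean identity, no layer cake.
The three final lemmas `expLawAux_*` have exactly the statements of the first three Spec lemmas
of `ExpLaw.lean`.
-/
import Crest.Agent.S0423Lib.Defs

set_option autoImplicit false

namespace Crest.Agent.S0423Lib

open MeasureTheory Set

/-! ### private helpers (module ExpLaw) -/

lemma expLaw_pos (β b s : ℝ) : 0 < expSurv β b s :=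
  lt_min one_pos (Real.exp_pos _)

lemma expLaw_le_one (β b s : ℝ) : expSurv β b s ≤ 1 := min_le_left _ _

lemma expLaw_continuous (β b : ℝ) : Continuous (expSurv β b) := by
  unfold expSurv; fun_prop

lemma expLaw_of_ge {β b s : ℝ} (hb : 0 < b) (h : β ≤ s) :
    expSurv β b s = Real.exp (-(s - β) / b) := by
  unfold expSurv
  apply min_eq_right
  rw [Real.exp_le_one_iff]
  apply div_nonpos_of_nonpos_of_nonneg _ hb.le
  linarith

lemma expLaw_of_le {β b s : ℝ} (hb : 0 < b) (h : s ≤ β) : expSurv β b s = 1 := by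
  unfold expSurv
  apply min_eq_left
  rw [Real.one_le_exp_iff]
  apply div_nonneg _ hb.le
  linarith

lemma expLaw_exp_eq (β b s : ℝ) (hb : 0 < b) :
    Real.exp (-(s - β) / b) = Real.exp (β / b) * Real.exp ((-1 / b) * s) := by
  rw [← Real.exp_add]
  congr 1
  field_simp
  ring

/-- integrability on any right half-line. -/
lemma expLaw_integrableOn_Ioi (β b c : ℝ) (hb : 0 < b) : IntegrableOn (expSurv β b) (Ioi c) := by
  have h1 : IntegrableOn (fun s : ℝ => Real.exp (β / b) * Real.exp ((-1 / b) * s)) (Ioi c) :=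
    (integrableOn_exp_mul_Ioi (a := -1 / b) (by
      apply div_neg_of_neg_of_pos (by norm_num) hb) c).const_mul _
  refine Integrable.mono' h1 (expLaw_continuous β b).aestronglyMeasurable ?_
  refine Filter.Eventually.of_forall (fun s => ?_)
  rw [Real.norm_of_nonneg (expLaw_pos β b s).le, ← expLaw_exp_eq β b s hb]
  exact min_le_right _ _

/-- the integral over a right half-line starting right of the kink. -/
lemma expLaw_integral_Ioi {β b c : ℝ} (hb : 0 < b) (hc : β ≤ c) :
    ∫ s in Ioi c, expSurv β b s = b * Real.exp (-(c - β) / b) := by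
  have h0 : ∫ s in Ioi c, expSurv β b s
      = ∫ s in Ioi c, Real.exp (β / b) * Real.exp ((-1 / b) * s) := by
    refine setIntegral_congr_fun measurableSet_Ioi (fun s hs => ?_)
    simp only [mem_Ioi] at hs
    show expSurv β b s = _
    rw [expLaw_of_ge hb (by linarith), expLaw_exp_eq β b s hb]
  have hneg : -1 / b < 0 := div_neg_of_neg_of_pos (by norm_num) hb
  rw [h0, integral_const_mul, integral_exp_mul_Ioi hneg c, expLaw_exp_eq β b c hb]
  field_simp

lemma expLaw_one_sub_integrableOn_Iic (β b c : ℝ) (hb : 0 < b) :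
    IntegrableOn (fun s => 1 - expSurv β b s) (Iic c) := by
  have hc : Continuous (fun s => 1 - expSurv β b s) :=
    continuous_const.sub (expLaw_continuous β b)
  rcases le_total c β with h | h
  · have : IntegrableOn (fun _ : ℝ => (0 : ℝ)) (Iic c) := integrableOn_zero
    refine this.congr_fun (fun s hs => ?_) measurableSet_Iic
    simp only [mem_Iic] at hs
    show (0 : ℝ) = 1 - expSurv β b s
    rw [expLaw_of_le hb (hs.trans h)]; simp
  · have hu : Iic c = Iic β ∪ Ioc β c := (Iic_union_Ioc_eq_Iic h).symm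
    rw [hu]
    apply IntegrableOn.union
    · have : IntegrableOn (fun _ : ℝ => (0 : ℝ)) (Iic β) := integrableOn_zero
      refine this.congr_fun (fun s hs => ?_) measurableSet_Iic
      simp only [mem_Iic] at hs
      show (0 : ℝ) = 1 - expSurv β b s
      rw [expLaw_of_le hb hs]; simp
    · exact (hc.integrableOn_Icc (a := β) (b := c)).mono_set Ioc_subset_Icc_self

lemma expLaw_one_sub_integral_Iic_of_le {β b c : ℝ} (hb : 0 < b) (h : c ≤ β) :
    ∫ s in Iic c, (1 - expSurv β b s) = 0 := by
  have : ∫ s in Iic c, (1 - expSurv β b s) = ∫ s in Iic c, (0 : ℝ) := by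
    refine setIntegral_congr_fun measurableSet_Iic (fun s hs => ?_)
    simp only [mem_Iic] at hs
    show 1 - expSurv β b s = 0
    rw [expLaw_of_le hb (hs.trans h)]; simp
  rw [this]; simp

lemma expLaw_integral_Ioc {β b c : ℝ} (hb : 0 < b) (h : β ≤ c) :
    ∫ s in Ioc β c, (1 - expSurv β b s) = (c - β) - b + b * Real.exp (-(c - β) / b) := by
  have h2 : ∫ s in Ioc β c, (1 - expSurv β b s)
      = ∫ s in Ioc β c, (1 - Real.exp (-(s - β) / b)) := by
    refine setIntegral_congr_fun measurableSet_Ioc (fun s hs => ?_)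
    show 1 - expSurv β b s = _
    rw [expLaw_of_ge hb hs.1.le]
  rw [h2, ← intervalIntegral.integral_of_le h]
  have hderiv : ∀ x ∈ uIcc β c,
      HasDerivAt (fun s : ℝ => s + b * Real.exp (-(s - β) / b)) (1 - Real.exp (-(x - β) / b)) x := by
    intro x _
    have h3 : HasDerivAt (fun s : ℝ => -(s - β) / b) (-1 / b) x := by
      have := ((hasDerivAt_id x).sub_const β).neg.div_const b
      simpa using this
    have h4 := (h3.exp.const_mul b)
    have h5 : HasDerivAt (fun s : ℝ => s + b * Real.exp (-(s - β) / b))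
        (1 + b * (Real.exp (-(x - β) / b) * (-1 / b))) x := (hasDerivAt_id' x).add h4
    have e : 1 + b * (Real.exp (-(x - β) / b) * (-1 / b)) = 1 - Real.exp (-(x - β) / b) := by
      field_simp
      ring
    rw [← e]; exact h5
  have hcont : IntervalIntegrable (fun x : ℝ => 1 - Real.exp (-(x - β) / b)) volume β c := by
    apply Continuous.intervalIntegrable
    fun_prop
  rw [intervalIntegral.integral_eq_sub_of_hasDerivAt hderiv hcont]
  simp
  ring

lemma expLaw_one_sub_integral_Iic_of_ge {β b c : ℝ} (hb : 0 < b) (h : β ≤ c) :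
    ∫ s in Iic c, (1 - expSurv β b s) = (c - β) - b + b * Real.exp (-(c - β) / b) := by
  have hu : Iic c = Iic β ∪ Ioc β c := (Iic_union_Ioc_eq_Iic h).symm
  have hint := expLaw_one_sub_integrableOn_Iic β b c hb
  rw [hu] at hint ⊢
  rw [setIntegral_union (Iic_disjoint_Ioc le_rfl) measurableSet_Ioc
    (hint.mono_set subset_union_left) (hint.mono_set subset_union_right),
    expLaw_one_sub_integral_Iic_of_le hb le_rfl, expLaw_integral_Ioc hb h]
  ring

lemma expLaw_integral_Ioi_of_le {β b c : ℝ} (hb : 0 < b) (h : c ≤ β) :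
    ∫ s in Ioi c, expSurv β b s = (β - c) + b := by
  have hu : Ioi c = Ioc c β ∪ Ioi β := (Ioc_union_Ioi_eq_Ioi h).symm
  have hint := expLaw_integrableOn_Ioi β b c hb
  rw [hu] at hint ⊢
  rw [setIntegral_union (Ioc_disjoint_Ioi le_rfl) measurableSet_Ioi
    (hint.mono_set subset_union_left) (hint.mono_set subset_union_right),
    expLaw_integral_Ioi hb le_rfl]
  have h1 : ∫ s in Ioc c β, expSurv β b s = ∫ s in Ioc c β, (1 : ℝ) := by
    refine setIntegral_congr_fun measurableSet_Ioc (fun s hs => ?_)
    show expSurv β b s = 1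
    rw [expLaw_of_le hb hs.2]
  rw [h1]
  simp [h]

/-! ### the three Spec lemmas of `ExpLaw.lean` -/

theorem expLawAux_integrableOn_Ioi (β b : ℝ) (hb : 0 < b) : IntegrableOn (expSurv β b) (Ioi 0) :=
  expLaw_integrableOn_Ioi β b 0 hb

theorem expLawAux_one_sub_integrableOn_Iic (β b : ℝ) (hb : 0 < b) :
    IntegrableOn (fun s => 1 - expSurv β b s) (Iic 0) :=
  expLaw_one_sub_integrableOn_Iic β b 0 hb

/-- mean of `β + b X` via its survival function. -/
theorem expLawAux_mean (β b : ℝ) (hb : 0 < b) :
    (∫ s in Ioi 0, expSurv β b s) - ∫ s in Iic 0, (1 - expSurv β b s) = β + b := by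
  rcases le_total β 0 with h | h
  · rw [expLaw_integral_Ioi hb h, expLaw_one_sub_integral_Iic_of_ge hb h]
    ring
  · rw [expLaw_integral_Ioi_of_le hb h, expLaw_one_sub_integral_Iic_of_le hb h]
    ring

end Crest.Agent.S0423Lib
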